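import Vale.Agent.Lib.P200.Gen.Line

namespace Vale.Agent.Lib.P200.Gen

open MvPolynomial Module Fam

/-- The monomials of degree `d` with first exponent `i`. -/
def rowE (d i : ℕ) : Finset T3 :=
  (Finset.range (d + 1 - i)).image (fun j => (i, j, d - i - j))

lemma card_rowE (d i : ℕ) : (rowE d i).card = d + 1 - i := by
  rw [rowE, Finset.card_image_of_injOn, Finset.card_range]
  intro x _ y _ h
  simp only [Prod.mk.injEq] at h
  exact h.2.1

lemma rowE_sub {e : T3} {d i : ℕ} (h1 : i < e.1) (h2 : d - i < e.2.1) (h3 : d - i < e.2.2) :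
    rowE d i ⊆ outE e d := by
  intro t ht
  obtain ⟨j, hj, rfl⟩ := Finset.mem_image.mp ht
  have := Finset.mem_range.mp hj
  rw [mem_out]
  simp only
  omega

/-- The monomials of degree `d` with first exponent greater than `i`. -/
def Aset (e : T3) (d i : ℕ) : Finset T3 := (outE e d).filter (fun t => i < t.1)

lemma Aset_step {e : T3} {d i : ℕ} (hsub : rowE d (i + 1) ⊆ outE e d) :
    (Aset e d (i + 1)).card + (d + 1 - (i + 1)) ≤ (Aset e d i).card := by
  have h1 : Aset e d (i + 1) ∪ rowE d (i + 1) ⊆ Aset e d i := by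
    refine Finset.union_subset ?_ ?_
    · intro t ht
      obtain ⟨h2, h3⟩ := Finset.mem_filter.mp ht
      exact Finset.mem_filter.mpr ⟨h2, by omega⟩
    · intro t ht
      refine Finset.mem_filter.mpr ⟨hsub ht, ?_⟩
      obtain ⟨j, _, rfl⟩ := Finset.mem_image.mp ht
      simp
  have h2 : Disjoint (Aset e d (i + 1)) (rowE d (i + 1)) := by
    rw [Finset.disjoint_left]
    intro t h3 h4
    obtain ⟨_, h5⟩ := Finset.mem_filter.mp h3
    obtain ⟨j, _, rfl⟩ := Finset.mem_image.mp h4
    simp at h5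
  have h3 := Finset.card_le_card h1
  rw [Finset.card_union_of_disjoint h2, card_rowE] at h3
  exact h3

lemma th_rec {a d T s : ℕ} (hT : T = if a ≤ d + 1 then a else d + 2) (hs : 1 ≤ s) :
    th a d (s + 1) = th a d s + (d + 1 + s - T) := by
  obtain ⟨r, rfl⟩ : ∃ r, s = r + 1 := ⟨s - 1, by omega⟩
  unfold th
  by_cases h : a ≤ d + 1
  · rw [if_pos h] at hT ⊢
    rw [if_pos h]
    simp only [Nat.add_sub_cancel]
    rw [choose_step (r + 1), Nat.add_mul]
    have : d + 1 + (r + 1) - T = (d + 1 - a) + (r + 1) := by omega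
    rw [this]
    ring
  · rw [if_neg h] at hT ⊢
    rw [if_neg h]
    simp only [Nat.add_sub_cancel]
    rw [choose_step r]
    omega

lemma rows_bound {a b c d T i₀ : ℕ} (hT : T = if a ≤ d + 1 then a else d + 2)
    (hj : d + 1 - i₀ < b) (hdc : d < c) (ha : 1 ≤ a) :
    ∀ s, 1 ≤ s → s + i₀ ≤ T → th a d s ≤ (Aset (a, b, c) d (T - s)).card := by
  have hTa : T ≤ a := by
    split_ifs at hT <;> omega
  have hTd : T ≤ d + 2 := by
    split_ifs at hT <;> omega
  intro s hs
  induction s, hs using Nat.le_induction with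
  | base =>
    intro _
    rw [th_one]
    exact Nat.zero_le _
  | succ s hs ih =>
    intro h1
    have h2 := ih (by omega)
    have h3 := th_rec hT hs
    have h4 : T - s = (T - (s + 1)) + 1 := by omega
    have hsub : rowE d ((T - (s + 1)) + 1) ⊆ outE (a, b, c) d := by
      refine rowE_sub ?_ ?_ ?_
      · show (T - (s + 1)) + 1 < a
        omega
      · show d - ((T - (s + 1)) + 1) < b
        omega
      · show d - ((T - (s + 1)) + 1) < c
        omega
    have h5 := Aset_step hsub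
    rw [← h4] at h5
    rw [h3]
    omega

/-- The size of the shadow in the degrees up to the critical one. -/
theorem GS_gen {a b c d q : ℕ} (hab : a ≤ b) (ha : 1 ≤ a) (hdc : d < c) (hd : d + 4 ≤ a + b)
    (hq : 1 ≤ q) :
    ∃ t, 1 ≤ t ∧ t ≤ a ∧ t + d + 2 ≤ a + b ∧ th a d t < q ∧ GS (a, b, c) d q ≤ q + t := by
  classical
  set e : T3 := (a, b, c) with he
  have he1 : e.1 = a := rfl
  have he2 : e.2.1 = b := rfl
  have he3 : e.2.2 = c := rfl
  have hsplit := Finset.card_filter_add_card_filter_not (s := SH e d q) (fun u => 0 < u.2.2)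
  have h2 : ((SH e d q).filter (fun u => 0 < u.2.2)).card ≤ q := by
    have h3 : ((SH e d q).filter (fun u => 0 < u.2.2)).card ≤ (Fam.topSet e d q).card := by
      refine Finset.card_le_card_of_injOn Ldiv ?_ ?_
      · intro u hu
        obtain ⟨h4, _⟩ := Finset.mem_filter.mp hu
        obtain ⟨h5, h6⟩ := mem_SH.mp h4
        exact Fam.mem_topSet.mpr ⟨Ldiv_mem h5, h6⟩
      · intro u hu v hv huv
        have h4 := (Finset.mem_filter.mp hu).2
        have h5 := (Finset.mem_filter.mp hv).2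
        simp only [Ldiv, if_pos h4, if_pos h5, Prod.mk.injEq] at huv
        ext
        · exact huv.1
        · exact huv.2.1
        · omega
    rw [Fam.card_topSet] at h3
    omega
  set S₀ := (SH e d q).filter (fun u => ¬ 0 < u.2.2) with hS₀
  have hGS : GS e d q = ((SH e d q).filter (fun u => 0 < u.2.2)).card + S₀.card := hsplit.symm
  by_cases hne : S₀.Nonempty
  swap
  · rw [Finset.not_nonempty_iff_eq_empty] at hne
    rw [hne, Finset.card_empty] at hGS
    refine ⟨1, le_rfl, by omega, by omega, by rw [th_one]; omega, by omega⟩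
  obtain ⟨u₀, hu₀, hmin⟩ := Finset.exists_min_image S₀ (fun u => u.1) hne
  obtain ⟨hu₁, hu₂⟩ := Finset.mem_filter.mp hu₀
  obtain ⟨hu₃, hu₄⟩ := mem_SH.mp hu₁
  obtain ⟨⟨hu₅, hu₆, hu₇⟩, hu₈⟩ := mem_out.mp hu₃
  obtain ⟨T, hT⟩ : ∃ T, T = if a ≤ d + 1 then a else d + 2 := ⟨_, rfl⟩
  have hTc : (a ≤ d + 1 ∧ T = a) ∨ (¬ a ≤ d + 1 ∧ T = d + 2) := by
    by_cases h : a ≤ d + 1
    · exact Or.inl ⟨h, by rw [hT, if_pos h]⟩
    · exact Or.inr ⟨h, by rw [hT, if_neg h]⟩
  have hcard : S₀.card ≤ T - u₀.1 := by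
    have hsub : S₀ ⊆ (Finset.Ico u₀.1 T).image (fun i => (i, d + 1 - i, 0)) := by
      intro u hu
      obtain ⟨h3, h4⟩ := Finset.mem_filter.mp hu
      obtain ⟨h5, h6⟩ := mem_SH.mp h3
      obtain ⟨⟨h7, h8, h9⟩, h10⟩ := mem_out.mp h5
      have h11 := hmin u hu
      refine Finset.mem_image.mpr ⟨u.1, Finset.mem_Ico.mpr ⟨h11, ?_⟩, ?_⟩
      · omega
      · ext
        · rfl
        · simp only
          omega
        · simp only
          omega
    have h3 := Finset.card_le_card hsub
    have h4 := Finset.card_image_le (s := Finset.Ico u₀.1 T) (f := fun i => (i, d + 1 - i, 0))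
    rw [Nat.card_Ico] at h4
    omega
  refine ⟨T - u₀.1, by omega, by omega, by omega, ?_, by omega⟩
  by_cases hj0 : u₀.2.1 = 0
  · have h3 : T - u₀.1 = 1 := by omega
    rw [h3, th_one]
    omega
  · have h3 := rows_bound (a := a) (b := b) (c := c) (d := d) (T := T) (i₀ := u₀.1) hT (by omega) hdc
      ha (T - u₀.1) (by omega) (by omega)
    rw [show T - (T - u₀.1) = u₀.1 by omega] at h3
    have h4 : (Aset (a, b, c) d u₀.1).card ≤ rankE e d (Ldiv u₀) := by
      refine Finset.card_le_card fun s hs => ?_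
      obtain ⟨h5, h6⟩ := Finset.mem_filter.mp hs
      refine Finset.mem_filter.mpr ⟨h5, ?_⟩
      have h7 : Ldiv u₀ = (u₀.1, u₀.2.1 - 1, 0) := by
        rw [Ldiv, if_neg (by omega), if_pos (by omega)]
      rw [h7]
      simp only [lexGT]
      omega
    omega

end Vale.Agent.Lib.P200.Gen
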