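import Vale.Agent.Lib.P200.Gen.Bound

namespace Vale.Agent.Lib.P200.Gen

open MvPolynomial Module Fam

variable {K : Type*} [Field K] {f g h : MvPolynomial (Fin 3) K} {a b c₀ : ℕ}

lemma gmul_Hd_zero (x : MvPolynomial (Fin 3) K) : gmul x (Hd K 0) = Submodule.span K {x} := by
  refine le_antisymm ?_ span_le_gmul
  intro y hy
  obtain ⟨u, hu, rfl⟩ := mem_gmul.mp hy
  have hu' : u = C (coeff 0 u) := by
    by_cases h0 : u = 0
    · simp [h0]
    · exact totalDegree_eq_zero_iff_eq_C.mp (totalDegree_of_Hd hu h0)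
  rw [hu', mul_comm, ← smul_eq_C_mul]
  exact Submodule.smul_mem _ _ (Submodule.mem_span_singleton_self x)

section Parts

variable (hf : f ∈ Hd K a) (hg : g ∈ Hd K b) (hh : h ∈ Hd K c₀)

include hf hg hh

lemma F3_low {n : ℕ} (hn : n < c₀) : degPart (Ideal.span {f, g, h}) n = FF f g n := by
  rw [degPart_abc hf hg hh, Pt_of_lt hn, gmul_bot, sup_bot_eq]

lemma F3_top : degPart (Ideal.span {f, g, h}) c₀ = FF f g c₀ ⊔ Submodule.span K {h} := by
  rw [degPart_abc hf hg hh, Pt_of_le le_rfl, Nat.sub_self, gmul_Hd_zero]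

end Parts

section Growth

variable [IsAlgClosed K] (hf : f ∈ Hd K a) (hg : g ∈ Hd K b) (hh : h ∈ Hd K c₀)
  (hreg : RegSeq f g h) (ha : 3 ≤ a) (hab : a ≤ b) (hc : a + b = c₀ + 3)

include hf hg hh hreg ha hab hc

/-- Growth in the degrees below the critical one. -/
lemma growth_low {d : ℕ} (hd : d + 1 < c₀) : GrowthG (GS (a, b, c₀)) f g h d := by
  intro V hV hFV
  obtain ⟨α, β, c, G⟩ := exists_goodLine hreg hf hg hh ha hab
  rw [F3_low hf hg hh (by omega : d < c₀)] at hFV ⊢
  rw [F3_low hf hg hh hd]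
  change finrank K (FF f g (d + 1)) + GS (a, b, c₀) d (finrank K V - finrank K (FF f g d))
    ≤ finrank K (UpG f g V d)
  have h1 := finrank_mono_Hd hFV hV
  obtain ⟨q, hq⟩ : ∃ q, finrank K V = finrank K (FF f g d) + q := ⟨finrank K V - finrank K (FF f g d), by omega⟩
  rw [hq, Nat.add_sub_cancel_left]
  by_cases hq0 : q = 0
  · subst hq0
    rw [GS_zero, add_zero]
    exact finrank_mono_Hd (FF_le_UpG _ _) (UpG_le hV)
  · obtain ⟨t, t1, t2, t3, t4, t5⟩ := GS_gen (a := a) (b := b) (c := c₀) (d := d) (q := q) hab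
      (by omega) (by omega) (by omega) (by omega)
    have h2 := P1 G d V hV hFV q t hq t1 t2 t3 t4
    omega

/-- The top step. -/
lemma growth_crit {d : ℕ} (hd : d + 1 = c₀) : GrowthG (GS (a, b, c₀)) f g h d := by
  subst hd
  intro V hV hFV
  obtain ⟨α, β, c, G⟩ := exists_goodLine hreg hf hg hh ha hab
  rw [F3_low hf hg hh (by omega : d < d + 1)] at hFV ⊢
  rw [F3_top hf hg hh]
  have hsup : Hd K 1 * V ⊔ (FF f g (d + 1) ⊔ Submodule.span K {h})
      = UpG f g V d ⊔ Submodule.span K {h} := by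
    rw [← sup_assoc]
    rfl
  rw [hsup]
  have hhle : Submodule.span K {h} ≤ Hd K (d + 1) :=
    (Submodule.span_singleton_le_iff_mem _ _).mpr hh
  have hUle : UpG f g V d ⊔ Submodule.span K {h} ≤ Hd K (d + 1) := sup_le (UpG_le hV) hhle
  have hFle : FF f g (d + 1) ⊔ Submodule.span K {h} ≤ Hd K (d + 1) := sup_le (FF_le _) hhle
  have hF3 : finrank K ↥(FF f g (d + 1) ⊔ Submodule.span K {h}) ≤ finrank K (FF f g (d + 1)) + 1 := by
    have := fin_of_le (FF_le (f := f) (g := g) (d + 1))
    have := fin_of_le hhle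
    have h2 := Submodule.finrank_add_le_finrank_add_finrank (FF f g (d + 1)) (Submodule.span K {h})
    have h3 := finrank_span_le_card (R := K) ({h} : Set (MvPolynomial (Fin 3) K))
    simp only [Set.toFinset_singleton, Finset.card_singleton] at h3
    omega
  have h1 := finrank_mono_Hd hFV hV
  obtain ⟨q, hq⟩ : ∃ q, finrank K V = finrank K (FF f g d) + q := ⟨finrank K V - finrank K (FF f g d), by omega⟩
  rw [hq, Nat.add_sub_cancel_left]
  by_cases hfull : V = Hd K d
  · -- the full case
    have h2 : UpG f g V d ⊔ Submodule.span K {h} = Hd K (d + 1) := by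
      refine le_antisymm hUle ?_
      rw [← Hd_one_mul d, ← hfull]
      exact le_sup_left.trans le_sup_left
    rw [h2]
    have h3 := (finrank_all hreg hf hg hh (by omega) (by omega) (d + 1)).2.2
    rw [F3_top hf hg hh] at h3
    have h4 := GS_le_card (a, b, d + 1) d q
    rw [outsideP_eq] at h4
    rw [finrank_Hd]
    omega
  by_cases hq0 : q = 0
  · subst hq0
    rw [GS_zero, add_zero]
    exact finrank_mono_Hd (sup_le_sup_right (FF_le_UpG _ _) _) hUle
  obtain ⟨t, t1, t2, t3, t4, t5⟩ := GS_gen (a := a) (b := b) (c := d + 1) (d := d) (q := q) hab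
    (by omega) (by omega) (by omega) (by omega)
  by_cases hhU : h ∈ UpG f g V d
  · have h2 : UpG f g V d ⊔ Submodule.span K {h} = UpG f g V d :=
      sup_eq_left.mpr ((Submodule.span_singleton_le_iff_mem _ _).mpr hhU)
    rw [h2]
    -- a nonzerodivisor exists
    have hnz : ∃ w ∈ V, NZD f g w := by
      by_contra hno
      push Not at hno
      obtain ⟨P, _, hP2, hP3, hP4⟩ := exists_prime hno
      exact hP4 h (UpG_le_ideal hP2 hP3 hhU) hreg.h2
    obtain ⟨w, hwV, hw⟩ := hnz
    have ht12 : t = 1 ∨ t = 2 := by omega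
    rcases ht12 with rfl | rfl
    · have h3 := PN1 G hV hFV hq (by omega) hwV hw
      omega
    · have h3 : 2 ≤ q := by
        unfold th at t4
        rw [if_pos (by omega)] at t4
        have h5 : (2 : ℕ).choose 2 = 1 := rfl
        simp only [h5] at t4
        omega
      have h4 := PN2 G hreg.h1 d V hV hFV q hq h3 (by omega) (fun _ => hfull) w hwV hw
      omega
  · have h2 := P1 G d V hV hFV q t hq t1 t2 t3 t4
    have h3 : UpG f g V d < UpG f g V d ⊔ Submodule.span K {h} := by
      refine lt_of_le_of_ne le_sup_left ?_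
      intro he
      apply hhU
      rw [he]
      exact Submodule.mem_sup_right (Submodule.mem_span_singleton_self h)
    have := fin_of_le hUle
    have h4 := Submodule.finrank_lt_finrank_of_lt h3
    omega

/-- Growth in all degrees. -/
theorem growth_closed (d : ℕ) : GrowthG (GS (a, b, c₀)) f g h d := by
  have hlow : ∀ d, d + 1 ≤ c₀ → GrowthG (GS (a, b, c₀)) f g h d := by
    intro d hd
    by_cases h1 : d + 1 < c₀
    · exact growth_low hf hg hh hreg ha hab hc h1
    · exact growth_crit hf hg hh hreg ha hab hc (by omega)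
  by_cases hd : d + 1 ≤ c₀
  · exact hlow d hd
  by_cases hd2 : d + 1 ≤ 2 * c₀
  · obtain ⟨e', he'⟩ : ∃ e', d + 1 + e' = 2 * c₀ := ⟨2 * c₀ - (d + 1), by omega⟩
    refine growth_dualG hreg hf hg hh (by omega) (by omega) (by omega)
      (by omega : a + b + c₀ = 2 * c₀ + 3) he' ?_ (hlow e' (by omega))
    intro v t _ ht hg'
    have := GS_dual (e := (a, b, c₀)) (s := 2 * c₀) (by simp only; omega) he' (v := v) (t := t)
    rw [outsideP_eq, outsideP_eq] at this
    exact this ht hg'
  · intro V hV _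
    have h1 := GS_le_card (a, b, c₀) d (finrank K ↥V - finrank K ↥(degPart (Ideal.span {f, g, h}) d))
    have h2 : outE (a, b, c₀) (d + 1) = ∅ := by
      rw [Finset.eq_empty_iff_forall_notMem]
      intro t ht
      obtain ⟨⟨_, _, _⟩, h3⟩ := mem_out.mp ht
      simp only at *
      omega
    rw [h2, Finset.card_empty] at h1
    have h3 : GS (a, b, c₀) d (finrank K ↥V - finrank K ↥(degPart (Ideal.span {f, g, h}) d)) = 0 := by
      omega
    rw [h3, add_zero]
    exact finrank_mono_Hd le_sup_right (sup_le (mul_le_Hd hV) inf_le_right)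

end Growth

end Vale.Agent.Lib.P200.Gen
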