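import Vale.Agent.Lib.P200.Gen.PNtwo

namespace Vale.Agent.Lib.P200.Gen

open MvPolynomial Module Fam

variable {K : Type*} [Field K] {f g h : MvPolynomial (Fin 3) K} {a b e3 : ℕ}

/-- A point with first coordinate one where a nonzero form does not vanish. -/
lemma exists_point [Infinite K] {u : MvPolynomial (Fin 3) K} {n : ℕ} (hu : u ∈ Hd K n)
    (hu0 : u ≠ 0) : ∃ α β : K, eval ![1, α, β] u ≠ 0 := by
  have h1 : (X 0 : MvPolynomial (Fin 3) K) * u ≠ 0 := mul_ne_zero (X_ne_zero 0) hu0
  have h2 : ∃ P, eval P ((X 0 : MvPolynomial (Fin 3) K) * u) ≠ 0 := by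
    by_contra hcon
    push Not at hcon
    exact h1 (MvPolynomial.funext (fun P => by rw [hcon P, map_zero]))
  obtain ⟨P, hP⟩ := h2
  rw [map_mul, eval_X] at hP
  have hP0 : P 0 ≠ 0 := left_ne_zero_of_mul hP
  have hPu : eval P u ≠ 0 := right_ne_zero_of_mul hP
  refine ⟨P 1 / P 0, P 2 / P 0, fun h0 => hPu ?_⟩
  have h3 : (fun i => P 0 * (![1, P 1 / P 0, P 2 / P 0] : Fin 3 → K) i) = P := by
    funext i
    fin_cases i
    · simp
    · simp only [Fin.mk_one, Matrix.cons_val_one, Matrix.cons_val_zero]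
      field_simp
    · simp only [Fin.reduceFinMk, Matrix.cons_val]
      field_simp
  rw [← h3, eval_scale hu, h0, mul_zero]

/-- The exact degree of a restriction. -/
lemma natDegree_pi {α β : K} (c : K) {u : MvPolynomial (Fin 3) K} {n : ℕ} (hu : u ∈ Hd K n)
    (hQ : eval ![1, α, β] u ≠ 0) : (piC α β c u).natDegree = n := by
  obtain ⟨h1, h2⟩ := piC_deg α β c n hu
  refine le_antisymm h1 (Polynomial.le_natDegree_of_ne_zero ?_)
  rw [h2]
  exact hQ

lemma card_O2_le (A B n : ℕ) : (O2 A B n).card ≤ A * B := by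
  have h1 : (O2 A B n).card ≤ (Finset.range A ×ˢ Finset.range B).card := by
    refine Finset.card_le_card_of_injOn (fun t => (t.1, t.2.1)) ?_ ?_
    · intro t ht
      obtain ⟨h2, h3, h4⟩ := mem_O2.mp ht
      simp only [Finset.coe_product, Finset.coe_range, Set.mem_prod, Set.mem_Iio]
      exact ⟨h3, h4⟩
    · intro s hs t ht hst
      obtain ⟨h2, -, -⟩ := mem_O2.mp hs
      obtain ⟨h3, -, -⟩ := mem_O2.mp ht
      simp only [Prod.mk.injEq] at hst
      ext
      · exact hst.1
      · exact hst.2
      · omega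
  simpa using h1

/-- Two forms without a common factor are coprime on a line of the pencil. -/
theorem exists_goodLine [IsAlgClosed K] (hreg : RegSeq f g h) (hf : f ∈ Hd K a) (hg : g ∈ Hd K b)
    (hh : h ∈ Hd K e3) (ha : 3 ≤ a) (hab : a ≤ b) : ∃ α β c : K, GoodLine f g a b α β c := by
  classical
  have hf0 : f ≠ 0 := hreg.h0
  have hg0 : g ≠ 0 := by
    rintro rfl
    have h1 := hreg.h1 1 (by simp)
    rw [Ideal.mem_span_singleton'] at h1
    obtain ⟨x, hx⟩ := h1
    have h2 : (1 : MvPolynomial (Fin 3) K) ∈ Hd K 0 := isHomogeneous_one _ _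
    have h3 := decomp1 hf h2 hx
    rw [cp, if_neg (by omega), zero_mul] at h3
    exact zero_ne_one h3
  obtain ⟨α, β, hQ⟩ := exists_point (Hd_mul_mem hf hg) (mul_ne_zero hf0 hg0)
  rw [map_mul] at hQ
  have hQf := left_ne_zero_of_mul hQ
  have hQg := right_ne_zero_of_mul hQ
  by_cases hex : ∃ c, IsCoprime (piC α β c f) (piC α β c g)
  · obtain ⟨c, hc⟩ := hex
    exact ⟨α, β, c, hf, hg, ha, hab, natDegree_pi c hf hQf, natDegree_pi c hg hQg, hc⟩
  exfalso
  push Not at hex
  have hroot : ∀ c : K, ∃ γ, eval ![γ, α * γ + c, β * γ + 1] f = 0 ∧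
      eval ![γ, α * γ + c, β * γ + 1] g = 0 := by
    intro c
    by_contra hc
    push Not at hc
    apply hex c
    rw [Polynomial.isCoprime_iff_aeval_ne_zero_of_isAlgClosed K K]
    intro x
    by_cases h2 : eval ![x, α * x + c, β * x + 1] f = 0
    · right
      have := hc x h2
      rw [← eval_piC] at this
      simpa using this
    · left
      rw [← eval_piC] at h2
      simpa using h2
  choose γ hγ1 hγ2 using hroot
  set n := a * b + 1 with hn
  let c : Fin n → K := fun i => Infinite.natEmbedding K i.1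
  have hc : Function.Injective c := fun i j hij =>
    Fin.ext ((Infinite.natEmbedding K).injective hij)
  let P : Fin n → Fin 3 → K := fun i => ![γ (c i), α * γ (c i) + c i, β * γ (c i) + 1]
  have hPf : ∀ i, eval (P i) f = 0 := fun i => hγ1 (c i)
  have hPv : ∀ i, eval (P i) g = 0 := fun i => hγ2 (c i)
  have hPt : ∀ i, eval (P i) (tF β) = 1 := by
    intro i
    simp [P, tF]
  have hPl : ∀ i j, eval (P i) (lF α β (c j)) = c i - c j := by
    intro i j
    simp [P, lF, tF]
  set N := n + a + b with hN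
  -- forms separating the points
  have hsep : ∀ i, ∃ x ∈ Hd K N, ∀ k, eval (P k) x = if k = i then 1 else 0 := by
    intro i
    let w := tF β ^ (N - (n - 1)) * ∏ j ∈ Finset.univ.erase i, lF α β (c j)
    have hw : w ∈ Hd K N := by
      have h1 : (∏ j ∈ Finset.univ.erase i, lF α β (c j)) ∈ Hd K (n - 1) := by
        have := IsHomogeneous.prod (Finset.univ.erase i) (fun j => lF α β (c j)) (fun _ => 1)
          (fun j _ => lF_mem α β (c j))
        rw [Finset.sum_const, Finset.card_erase_of_mem (Finset.mem_univ i), Finset.card_univ,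
          Fintype.card_fin, smul_eq_mul, mul_one] at this
        exact this
      have h2 := Hd_mul_mem (IsHomogeneous.pow (tF_mem β) (N - (n - 1))) h1
      rwa [show 1 * (N - (n - 1)) + (n - 1) = N by omega] at h2
    have hwi : eval (P i) w ≠ 0 := by
      simp only [w, map_mul, map_pow, hPt, one_pow, one_mul, map_prod, hPl]
      refine Finset.prod_ne_zero_iff.mpr fun j hj => ?_
      exact sub_ne_zero.mpr (fun h => (Finset.ne_of_mem_erase hj) (hc h).symm)
    have hwk : ∀ k, k ≠ i → eval (P k) w = 0 := by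
      intro k hk
      simp only [w, map_mul, map_prod, hPl]
      refine mul_eq_zero_of_right _ (Finset.prod_eq_zero (Finset.mem_erase.mpr ⟨hk, Finset.mem_univ k⟩) ?_)
      rw [sub_self]
    refine ⟨(eval (P i) w)⁻¹ • w, (Hd K N).smul_mem _ hw, fun k => ?_⟩
    rw [MvPolynomial.smul_eval]
    by_cases hki : k = i
    · rw [if_pos hki, hki]
      exact inv_mul_cancel₀ hwi
    · rw [if_neg hki, hwk k hki, mul_zero]
  -- the evaluation map
  let E : MvPolynomial (Fin 3) K →ₗ[K] (Fin n → K) :=
    LinearMap.pi (fun i => (aeval (P i) : MvPolynomial (Fin 3) K →ₐ[K] K).toLinearMap)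
  have hE : ∀ x i, E x i = eval (P i) x := by
    intro x i
    simp [E, aeval_eq_eval]
  have hr := LinearMap.finrank_range_add_finrank_ker (E.domRestrict (Hd K N))
  have hrange : LinearMap.range (E.domRestrict (Hd K N)) = ⊤ := by
    rw [LinearMap.range_eq_top]
    intro y
    choose x hx1 hx2 using hsep
    refine ⟨⟨∑ i, y i • x i, Submodule.sum_mem _ fun i _ => (Hd K N).smul_mem _ (hx1 i)⟩, ?_⟩
    funext k
    rw [LinearMap.domRestrict_apply, hE, map_sum]
    simp only [MvPolynomial.smul_eval, hx2]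
    simp
  rw [hrange, finrank_top, Module.finrank_fin_fun, LinearMap.ker_domRestrict, finrank_Hd] at hr
  have hle : FF f g N ≤ Hd K N ⊓ LinearMap.ker E := by
    refine le_inf (FF_le _) ?_
    rw [FF_eq hf hg]
    refine sup_le ?_ ?_
    · intro y hy
      obtain ⟨u, _, rfl⟩ := mem_gmul.mp hy
      rw [LinearMap.mem_ker]
      funext i
      rw [hE, map_mul, hPf, zero_mul]
      rfl
    · intro y hy
      obtain ⟨u, _, rfl⟩ := mem_gmul.mp hy
      rw [LinearMap.mem_ker]
      funext i
      rw [hE, map_mul, hPv, zero_mul]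
      rfl
  have h2 : finrank K ↥((LinearMap.ker E).comap (Hd K N).subtype)
      = finrank K ↥(Hd K N ⊓ LinearMap.ker E) := by
    have h3 : (LinearMap.ker E).comap (Hd K N).subtype
        = (Hd K N ⊓ LinearMap.ker E).comap (Hd K N).subtype := by
      ext x
      simp
    rw [h3]
    exact (Submodule.comapSubtypeEquivOfLe inf_le_left).finrank_eq
  have h4 := finrank_mono_Hd hle inf_le_left
  have h5 : finrank K (FF f g N) + (O2 a b N).card = (N + 2).choose 2 :=
    (finrank_all hreg hf hg hh (by omega) (by omega) N).2.1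
  have h6 := card_O2_le a b N
  rw [h2] at hr
  omega

end Vale.Agent.Lib.P200.Gen
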