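import Vale.Agent.Lib.P200.Gen.Grow

namespace Vale.Agent.Lib.P200.Gen

open MvPolynomial Module Fam

variable {K : Type*} [Field K]

/-- Growth in all degrees, over every field. -/
theorem growth_field {f g h : MvPolynomial (Fin 3) K} {a b c₀ : ℕ} (hf : f ∈ Hd K a)
    (hg : g ∈ Hd K b) (hh : h ∈ Hd K c₀) (hreg : RegSeq f g h) (ha : 3 ≤ a) (hab : a ≤ b)
    (hc : a + b = c₀ + 3) (d : ℕ) : GrowthG (GS (a, b, c₀)) f g h d := by
  let L := AlgebraicClosure K
  have h1 := growth_closed (K := L) (f := phi K L f) (g := phi K L g) (h := phi K L h)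
    (IsHomogeneous.map hf _) (IsHomogeneous.map hg _) (IsHomogeneous.map hh _)
    (regSeq_map hreg) ha hab hc d
  exact growth_descent hreg hf hg hh (by omega) (by omega) h1

/-- The Eisenbud-Green-Harris statement for regular sequences of type `(a, b, a + b - 3)` in three
variables, where `3 ≤ a ≤ b`. -/
theorem egh_gap (a b : ℕ) (ha : 3 ≤ a) (hab : a ≤ b) (f : Fin 3 → MvPolynomial (Fin 3) K)
    (hf : ∀ i, (f i).IsHomogeneous (![a, b, a + b - 3] i))
    (hreg : ∀ (i : Fin 3) (u : MvPolynomial (Fin 3) K),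
      f i * u ∈ Ideal.span (f '' {j | j < i}) → u ∈ Ideal.span (f '' {j | j < i}))
    (I : Ideal (MvPolynomial (Fin 3) K)) (hI : ∀ i, f i ∈ I) :
    (∃ 𝔍 : Ideal (MvPolynomial (Fin 3) K), ∀ g, g ∈ 𝔍 ↔ g ∈ ⨆ d, JE (a, b, a + b - 3) I d) ∧
      ∀ d, finrank K (JE (a, b, a + b - 3) I d) = finrank K (degPart I d) := by
  have h := regSeq_of f hreg
  have h0 : f 0 ∈ Hd K a := hf 0
  have h1 : f 1 ∈ Hd K b := hf 1
  have h2 : f 2 ∈ Hd K (a + b - 3) := hf 2
  have hspan : Ideal.span {f 0, f 1, f 2} ≤ I := by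
    rw [Ideal.span_le]
    rintro x (rfl | rfl | rfl)
    · exact hI 0
    · exact hI 1
    · exact hI 2
  have hdim : ∀ d, finrank K (degPart (Ideal.span {f 0, f 1, f 2}) d)
      = (Fam.inP (a, b, a + b - 3) d).card := by
    intro d
    have h3 := (finrank_all h h0 h1 h2 (by omega) (by omega) d).2.2
    have h4 := Fam.card_inP (a, b, a + b - 3) d
    rw [outsideP_eq] at h4
    omega
  have hF : ∀ d, (Fam.inP (a, b, a + b - 3) d).card ≤ finrank K (degPart I d) := by
    intro d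
    rw [← hdim]
    exact finrank_mono_Hd (inf_le_inf_right _ hspan) (inf_le_right : degPart I d ≤ Hd K d)
  refine ⟨Fam.ideal_of_step _ I ?_, fun d => Fam.finrank_Jd _ (hF d)⟩
  intro d
  have hV : degPart I d ≤ Hd K d := inf_le_right
  have hFV : degPart (Ideal.span {f 0, f 1, f 2}) d ≤ degPart I d := inf_le_inf_right _ hspan
  have h3 := growth_field h0 h1 h2 h ha hab (by omega) d (degPart I d) hV hFV
  have h4 : Hd K 1 * degPart I d ⊔ degPart (Ideal.span {f 0, f 1, f 2}) (d + 1) ≤ degPart I (d + 1) := by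
    refine sup_le ?_ (inf_le_inf_right _ hspan)
    refine Submodule.mul_le.mpr fun m hm g hg => ?_
    obtain ⟨h5, h6⟩ := mem_degPart.mp hg
    rw [mem_degPart]
    refine ⟨I.mul_mem_left m h5, ?_⟩
    have := Hd_mul_mem hm h6
    rwa [add_comm] at this
  have h5 := finrank_mono_Hd h4 (inf_le_right : degPart I (d + 1) ≤ Hd K (d + 1))
  rw [hdim, hdim] at h3
  rw [qE, qE, Fam.finrank_Pd, Fam.finrank_Pd]
  have h6 := hF (d + 1)
  omega

end Vale.Agent.Lib.P200.Gen
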