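import Vale.Agent.Lib.P200.Gen.Two

namespace Vale.Agent.Lib.P200.Gen

open MvPolynomial Module Fam

variable {K : Type*} [Field K] {f g : MvPolynomial (Fin 3) K} {a b : ℕ} {α β c : K}

section Persist

variable [Infinite K] (G : GoodLine f g a b α β c)

include G

/-- The persistence contradiction in the top degree. -/
theorem persist_contra (hg1 : ∀ u, g * u ∈ Ideal.span {f} → u ∈ Ideal.span {f}) {n : ℕ}
    {V : Submodule K (MvPolynomial (Fin 3) K)} (hV : V ≤ Hd K (n + 1)) (hd : n + 5 = a + b)
    {q : ℕ} (hq : finrank K V = finrank K (FF f g (n + 1)) + q)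
    (hU : finrank K (UpG f g V (n + 1)) = finrank K (FF f g (n + 1 + 1)) + q + 2)
    (hVne : V ≠ Hd K (n + 1)) {w : MvPolynomial (Fin 3) K} (hwV : w ∈ V) (hw : NZD f g w)
    (hslice : slice (lF α β c) (n + 1) (UpG f g V (n + 1)) = V)
    (hfull : V.map (piL α β c) = Pn K (n + 1)) : False := by
  have ha3 := G.ha
  have hab := G.hab
  have hl := lF_mem α β c
  have hUle : UpG f g V (n + 1) ≤ Hd K (n + 2) := UpG_le hV
  have hF2 := finrank_FF_succ G (n := n + 1) (by omega)
  have hrank : finrank K (UpG f g V (n + 1)) + finrank K (Hd K (n + 1))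
      = finrank K V + finrank K (Hd K (n + 2)) := by
    rw [finrank_Hd, finrank_Hd, hU, hq, hF2]
    have c1 := choose_step (n + 1 + 2)
    rw [show n + 2 + 2 = n + 1 + 2 + 1 by omega, c1]
    unfold bb
    omega
  have hnon : finrank K V < finrank K (Hd K (n + 1)) :=
    Submodule.finrank_lt_finrank_of_lt (lt_of_le_of_ne hV hVne)
  have hsurj : V ⊔ gmul (lF α β c) (Hd K n) = Hd K (n + 1) := by
    refine le_antisymm (sup_le hV ?_) ?_
    · have := gmul_le_Hd hl (le_refl (Hd K n))
      rwa [show 1 + n = n + 1 by omega] at this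
    · intro h hh
      have h1 : piL α β c h ∈ V.map (piL α β c) := by
        rw [hfull]
        exact mem_Pn.mpr (piC_deg α β c _ hh).1
      obtain ⟨v, hv, hvh⟩ := Submodule.mem_map.mp h1
      have h2 : h - v ∈ Hd K (n + 1) := Submodule.sub_mem _ hh (hV hv)
      have h3 : piC α β c (h - v) = 0 := by
        rw [map_sub, sub_eq_zero]
        exact hvh.symm
      obtain ⟨r, hr⟩ := lF_dvd_of_piC α β c h2 h3
      have hr' := homog_quot (e := 1) (k := n) hl (by rw [add_comm]; exact h2) hr
      refine Submodule.mem_sup.mpr ⟨v, hv, _, mul_mem_gmul (homogeneousComponent_mem _ r), ?_⟩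
      rw [← hr']
      ring
  have hinj : ∀ x ∈ Hd K (n + 1), lF α β c * x ∈ UpG f g V (n + 1) → x ∈ V := by
    intro x hx h1
    rw [← hslice]
    exact mem_slice.mpr ⟨h1, hx⟩
  have hmain := persist_of_injG (d := n) hV hUle hl le_sup_left hinj hrank hnon hsurj
  -- the regular sequence
  have hreg : RegSeq f g w := ⟨f_ne G, hg1, hw⟩
  set N := a + b + (n + 1) with hN
  have hlN : lF α β c ^ N ∈ Hd K N := by
    have := IsHomogeneous.pow hl N
    simpa using this
  have hmem := Hd_mem_F hreg G.hf G.hg (hV hwV) (by omega) (by omega) (le_refl N) hlN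
  obtain ⟨A, B, C₀, hABC⟩ := mem_span3.mp hmem
  set J := Ideal.span ((UpG f g V (n + 1) : Submodule K (MvPolynomial (Fin 3) K)) :
    Set (MvPolynomial (Fin 3) K)) with hJ
  have hU2 : ∀ x ∈ UpG f g V (n + 1), x ∈ J := fun x hx => Ideal.subset_span hx
  have hpowf : ∀ (e : ℕ) (u : MvPolynomial (Fin 3) K), u ∈ Hd K e → u ∈ Ideal.span {f, g} → e ≤ n + 2 →
      lF α β c ^ (n + 1) * u ∈ J ∨ e = 0 := by
    intro e u hu huI he
    by_cases he0 : e = 0
    · exact Or.inr he0
    left
    have h1 : lF α β c ^ (n + 2 - e) * u ∈ FF f g (n + 1 + 1) := by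
      refine mem_FF.mpr ⟨Ideal.mul_mem_left _ _ huI, ?_⟩
      have h2 := Hd_mul_mem (IsHomogeneous.pow hl (n + 2 - e)) hu
      rwa [show 1 * (n + 2 - e) + e = n + 1 + 1 by omega] at h2
    have h3 := hU2 _ (FF_le_UpG _ _ h1)
    have h4 : lF α β c ^ (n + 1) * u = lF α β c ^ (e - 1) * (lF α β c ^ (n + 2 - e) * u) := by
      rw [← mul_assoc, ← pow_add]
      congr 2
      omega
    rw [h4]
    exact Ideal.mul_mem_left _ _ h3
  have hf1 := (hpowf a f G.hf (Ideal.subset_span (by simp)) (by omega)).resolve_right (by omega)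
  have hg2 := (hpowf b g G.hg (Ideal.subset_span (by simp)) (by omega)).resolve_right (by omega)
  have hw1 : lF α β c ^ (n + 1) * w ∈ J := by
    have h1 := hU2 _ (mul_mem_UpG (f := f) (g := g) (n + 1) hl hwV)
    rw [pow_succ, mul_assoc]
    exact Ideal.mul_mem_left _ _ h1
  refine hmain (n + 1 + N) ?_
  have h5 : lF α β c ^ (n + 1 + N)
      = A * (lF α β c ^ (n + 1) * f) + B * (lF α β c ^ (n + 1) * g)
        + C₀ * (lF α β c ^ (n + 1) * w) := by
    rw [pow_add, ← hABC]
    ring
  rw [h5]
  exact Ideal.add_mem _ (Ideal.add_mem _ (Ideal.mul_mem_left _ _ hf1) (Ideal.mul_mem_left _ _ hg2))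
    (Ideal.mul_mem_left _ _ hw1)

end Persist

section Main

variable [Infinite K] (G : GoodLine f g a b α β c)

include G

/-- A nonzerodivisor in `V` and at least two generators force a growth by at least three. -/
theorem PN2 (hg1 : ∀ u, g * u ∈ Ideal.span {f} → u ∈ Ideal.span {f}) :
    ∀ (d : ℕ) (V : Submodule K (MvPolynomial (Fin 3) K)), V ≤ Hd K d → FF f g d ≤ V →
    ∀ q : ℕ, finrank K V = finrank K (FF f g d) + q → 2 ≤ q → d + 4 ≤ a + b →
    (d + 4 = a + b → V ≠ Hd K d) → ∀ w ∈ V, NZD f g w →
    finrank K (FF f g (d + 1)) + q + 3 ≤ finrank K (UpG f g V d) := by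
  have ha3 := G.ha
  have hab := G.hab
  intro d
  induction d with
  | zero =>
    intro V hV hFV q hq hq2 _ _ w hwV hw
    exfalso
    rw [FF_low G.hf G.hg hab (by omega), finrank_bot, zero_add] at hq
    have h1 := finrank_mono_Hd hV (le_refl _)
    rw [finrank_Hd, show (0 + 2 : ℕ).choose 2 = 1 from rfl] at h1
    omega
  | succ n ih =>
    intro V hV hFV q hq hq2 hd hVne w hwV hw
    by_contra hcon
    by_cases hq3 : q = 2
    · subst hq3
      exact hcon (PN2_two G hV hFV hq hd hwV hw)
    obtain ⟨s1, s2, s3, s4, s5, s6, s7, s8, s9, s10, s11⟩ := step_numbers G hV hFV (by omega)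
    set fW := finrank K (V.map (piL α β c)) with hfW
    set fŴ := finrank K ((UpG f g V (n + 1)).map (piL α β c)) with hfŴ
    set V' := slice (lF α β c) n V with hV'
    set U' := slice (lF α β c) (n + 1) (UpG f g V (n + 1)) with hU'
    have hS : V' ≤ Hd K n := slice_le _ _ _
    have hFS : FF f g n ≤ V' := FF_le_slice α β c hFV
    have hU'le : U' ≤ Hd K (n + 1) := slice_le _ _ _
    have hq' : finrank K V' = finrank K (FF f g n) + (finrank K V' - finrank K (FF f g n)) := by
      omega
    have hVU' : V ≤ U' := le_slice_Up α β c hV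
    have hUpU' : UpG f g V' n ≤ U' := UpG_slice_le α β c
    by_cases hfull : fW = n + 2
    · have h1 := s10 hfull
      have hd2 : n + 5 = a + b := by
        unfold bb at *
        omega
      have hW : V.map (piL α β c) = Pn K (n + 1) := by
        refine Submodule.eq_of_le_of_finrank_le (map_le_Pn α β c hV) ?_
        rw [finrank_Pn]
        omega
      have hsl : U' = V := (eq_of_le_finrank hU'le hVU' (by
        unfold bb at *
        omega)).symm
      refine persist_contra G hg1 hV hd2 hq ?_ (hVne (by omega)) hwV hw hsl hW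
      unfold bb at *
      omega
    have h1 := s9 hfull
    by_cases hnz : ∃ w' ∈ V', NZD f g w'
    · obtain ⟨w', hw'V, hw'⟩ := hnz
      by_cases hq'1 : finrank K V' - finrank K (FF f g n) = 1
      · have h2 := PN1 G hS hFS hq' (by omega) hw'V hw'
        have h3 : UpG f g V' n = U' := eq_of_le_finrank hU'le hUpU' (by omega)
        have h4 : V = U' := eq_of_le_finrank hU'le hVU' (by omega)
        have h5 : ∀ m ∈ Hd K 1, m * w' ∈ V := by
          intro m hm
          rw [h4, ← h3]
          exact mul_mem_UpG _ hm hw'V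
        have h6 : gmul w' (Hd K 2) ≤ UpG f g V (n + 1) := by
          have h7 : Hd K 2 ≤ (Hd K 1 * V).comap (LinearMap.mulLeft K w') := by
            rw [show (2 : ℕ) = 1 + 1 from rfl, ← Hd_one_mul 1, Submodule.mul_le]
            intro m₁ hm₁ m₂ hm₂
            show w' * (m₁ * m₂) ∈ Hd K 1 * V
            rw [show w' * (m₁ * m₂) = m₁ * (m₂ * w') by ring]
            exact Submodule.mul_mem_mul hm₁ (h5 m₂ hm₂)
          intro x hx
          obtain ⟨y, hy, rfl⟩ := mem_gmul.mp hx
          exact Submodule.mem_sup_left (h7 hy)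
        have h8 : gmul w' (Hd K 2) ⊔ FF f g (n + 1 + 1) ≤ UpG f g V (n + 1) :=
          sup_le h6 (FF_le_UpG _ _)
        have h9 := finrank_mono_Hd h8 (UpG_le hV)
        rw [finrank_free G hw' (by omega) (le_refl _) (hS hw'V), finrank_Hd,
          show (2 + 2 : ℕ).choose 2 = 6 from rfl] at h9
        omega
      · have h2 := ih V' hS hFS _ hq' (by omega) (by omega) (by omega) w' hw'V hw'
        omega
    · push Not at hnz
      obtain ⟨P, hP1, hP2, hP3, hP4⟩ := exists_prime hnz
      have hwP : w ∉ P := fun h => hP4 w h hw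
      have hwU : w ∉ UpG f g V' n := fun h => hwP (UpG_le_ideal hP2 hP3 h)
      have h2 := P1 G n V' hS hFS _ 1 hq' (by omega) (by omega) (by omega) (by rw [th_one]; omega)
      set A := UpG f g V' n ⊔ Submodule.span K {w} with hA
      have hAle : A ≤ U' := sup_le hUpU' ((Submodule.span_singleton_le_iff_mem _ _).mpr (hVU' hwV))
      have hlt : UpG f g V' n < A := by
        refine lt_of_le_of_ne le_sup_left ?_
        intro he
        apply hwU
        rw [he]
        exact Submodule.mem_sup_right (Submodule.mem_span_singleton_self w)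
      have := fin_of_le (hAle.trans hU'le)
      have h3 := Submodule.finrank_lt_finrank_of_lt hlt
      have h4 := finrank_mono_Hd hAle hU'le
      have hAU' : A = U' := eq_of_le_finrank hU'le hAle (by omega)
      obtain ⟨m, hm, hm0, hmV⟩ := T1 G n V' hS hFS _ hq' (by omega) (by omega) (by omega)
      -- the part of `V` killed by `m`
      set V₀ := V ⊓ UpG f g V' n with hV₀
      have hV₀le : V₀ ≤ Hd K (n + 1) := inf_le_left.trans hV
      have hFV₀ : FF f g (n + 1) ≤ V₀ := le_inf hFV (FF_le_UpG _ _)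
      have hVsup : V ≤ V₀ ⊔ Submodule.span K {w} := by
        intro x hx
        have h5 : x ∈ A := by
          rw [hAU']
          exact hVU' hx
        obtain ⟨y, hy, z, hz, rfl⟩ := Submodule.mem_sup.mp h5
        refine Submodule.add_mem_sup ⟨?_, hy⟩ hz
        obtain ⟨r, rfl⟩ := Submodule.mem_span_singleton.mp hz
        have h6 := V.sub_mem hx (V.smul_mem r hwV)
        rwa [add_sub_cancel_right] at h6
      have hfV₀ : finrank K V ≤ finrank K V₀ + 1 := by
        have := fin_of_le hV₀le
        have h5 := finrank_mono_Hd hVsup (sup_le hV₀le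
          ((Submodule.span_singleton_le_iff_mem _ _).mpr (hV hwV)))
        have h6 := Submodule.finrank_add_le_finrank_add_finrank V₀ (Submodule.span K {w})
        have h7 := finrank_span_le_card (R := K) ({w} : Set (MvPolynomial (Fin 3) K))
        simp only [Set.toFinset_singleton, Finset.card_singleton] at h7
        omega
      have hV₀V : V₀ ≤ V := inf_le_left
      have hfV₀2 := finrank_mono_Hd hV₀V hV
      have hq₀ : finrank K V₀ = finrank K (FF f g (n + 1)) + (finrank K V₀ - finrank K (FF f g (n + 1))) := by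
        omega
      have h5 := P1 G (n + 1) V₀ hV₀le hFV₀ _ 1 hq₀ (by omega) (by omega) (by omega)
        (by rw [th_one]; omega)
      -- the multiples of `w` are independent of those
      have hinf : gmul w (Hd K 1) ⊓ UpG f g V₀ (n + 1) = ⊥ := by
        rw [eq_bot_iff]
        rintro x ⟨hx1, hx2⟩
        obtain ⟨m₂, hm₂, rfl⟩ := mem_gmul.mp hx1
        have h6 : ∀ y ∈ V₀, m * y ∈ Ideal.span {f, g} := fun y hy => mul_mem_of_UpG hmV hy.2
        have h7 := mul_mem_of_UpG h6 hx2
        rw [show m * (w * m₂) = w * (m * m₂) by ring] at h7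
        have h8 : m * m₂ ∈ FF f g 2 := mem_FF.mpr ⟨hw _ h7, Hd_mul_mem hm hm₂⟩
        rw [FF_low G.hf G.hg hab (by omega)] at h8
        have h9 : m * m₂ = 0 := (Submodule.mem_bot K).mp h8
        rw [(mul_eq_zero.mp h9).resolve_left hm0, mul_zero]
        exact Submodule.zero_mem _
      have hA1 : gmul w (Hd K 1) ≤ Hd K (n + 1 + 1) := by
        have := gmul_le_Hd (hV hwV) (le_refl (Hd K 1))
        exact this
      have hA2 : UpG f g V₀ (n + 1) ≤ Hd K (n + 1 + 1) := UpG_le hV₀le
      have := fin_of_le hA1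
      have := fin_of_le hA2
      have h6 := Submodule.finrank_sup_add_finrank_inf_eq (gmul w (Hd K 1)) (UpG f g V₀ (n + 1))
      rw [hinf, finrank_bot, finrank_gmul (NZD.ne_zero G hw), finrank_Hd,
        show (1 + 2 : ℕ).choose 2 = 3 from rfl, add_zero] at h6
      have h7 : gmul w (Hd K 1) ⊔ UpG f g V₀ (n + 1) ≤ UpG f g V (n + 1) := by
        refine sup_le ?_ (UpG_mono hV₀V _)
        intro x hx
        obtain ⟨y, hy, rfl⟩ := mem_gmul.mp hx
        rw [mul_comm]
        exact mul_mem_UpG _ hy hwV
      have h8 := finrank_mono_Hd h7 (UpG_le hV)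
      omega

end Main

end Vale.Agent.Lib.P200.Gen
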