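import Vale.Agent.Lib.P200.Fam.Main

namespace Vale.Agent.Lib.P200.Gen

open Module

variable {K : Type*} [Field K]

/-- Polynomials in one variable of degree at most `n`. -/
noncomputable def Pn (K : Type*) [Field K] (n : ℕ) : Submodule K (Polynomial K) :=
  Polynomial.degreeLT K (n + 1)

lemma mem_Pn {n : ℕ} {p : Polynomial K} : p ∈ Pn K n ↔ p.natDegree ≤ n := by
  rw [Pn, Polynomial.mem_degreeLT]
  by_cases hp : p = 0
  · subst hp
    simp only [Polynomial.degree_zero, Polynomial.natDegree_zero, zero_le, iff_true]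
    exact WithBot.bot_lt_coe _
  · rw [Polynomial.degree_eq_natDegree hp]
    norm_cast
    omega

lemma finrank_Pn (n : ℕ) : finrank K (Pn K n) = n + 1 := by
  rw [Pn, (Polynomial.degreeLTEquiv K (n + 1)).finrank_eq, finrank_fin_fun]

instance Pn_finite (n : ℕ) : Module.Finite K (Pn K n) :=
  Module.finite_of_finrank_pos (by rw [finrank_Pn]; omega)

lemma finP {n : ℕ} {W : Submodule K (Polynomial K)} (h : W ≤ Pn K n) : Module.Finite K W :=
  Submodule.finiteDimensional_of_le h

lemma finrank_le_P {n : ℕ} {V W : Submodule K (Polynomial K)} (h : V ≤ W) (hW : W ≤ Pn K n) :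
    finrank K V ≤ finrank K W := by
  have := finP hW
  exact Submodule.finrank_mono h

/-- The image of a subspace under multiplication by `g`. -/
noncomputable def pm (g : Polynomial K) (W : Submodule K (Polynomial K)) :
    Submodule K (Polynomial K) := W.map (LinearMap.mulLeft K g)

lemma mem_pm {g x : Polynomial K} {W : Submodule K (Polynomial K)} :
    x ∈ pm g W ↔ ∃ u ∈ W, g * u = x := by
  simp [pm, Submodule.mem_map]

lemma mul_mem_pm {g u : Polynomial K} {W : Submodule K (Polynomial K)} (hu : u ∈ W) :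
    g * u ∈ pm g W := mem_pm.mpr ⟨u, hu, rfl⟩

lemma finrank_pm {g : Polynomial K} (hg : g ≠ 0) (W : Submodule K (Polynomial K)) :
    finrank K (pm g W) = finrank K W := by
  have hinj : Function.Injective (LinearMap.mulLeft K g) := by
    intro a b hab
    exact mul_left_cancel₀ hg hab
  exact (Submodule.equivMapOfInjective _ hinj W).finrank_eq.symm

lemma pm_mono {g : Polynomial K} {V W : Submodule K (Polynomial K)} (h : V ≤ W) :
    pm g V ≤ pm g W := Submodule.map_mono h

/-- Multiplication by the variable. -/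
noncomputable abbrev XW (W : Submodule K (Polynomial K)) : Submodule K (Polynomial K) :=
  pm Polynomial.X W

lemma natDegree_le_of_mem_pm {g x : Polynomial K} {W : Submodule K (Polynomial K)} {m n : ℕ}
    (hg : g.natDegree ≤ m) (hW : W ≤ Pn K n) (hx : x ∈ pm g W) : x.natDegree ≤ m + n := by
  obtain ⟨u, hu, rfl⟩ := mem_pm.mp hx
  exact Polynomial.natDegree_mul_le.trans (by have := mem_Pn.mp (hW hu); omega)

lemma XW_le {n : ℕ} {W : Submodule K (Polynomial K)} (hW : W ≤ Pn K n) : XW W ≤ Pn K (n + 1) := by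
  intro x hx
  have := natDegree_le_of_mem_pm (m := 1) (Polynomial.natDegree_X_le) hW hx
  exact mem_Pn.mpr (by omega)

lemma Pn_mono {m n : ℕ} (h : m ≤ n) : Pn K m ≤ Pn K n := by
  intro x hx
  exact mem_Pn.mpr ((mem_Pn.mp hx).trans h)

/-- A nonzero subspace of bounded degree is not stable under the variable. -/
lemma XW_not_le {D : ℕ} {W : Submodule K (Polynomial K)} (hW : W ≤ Pn K D) (hne : W ≠ ⊥) :
    ¬ XW W ≤ W := by
  intro hle
  obtain ⟨y, hy, hy0⟩ := Submodule.exists_mem_ne_zero_of_ne_bot hne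
  have h1 : ∀ k : ℕ, Polynomial.X ^ k * y ∈ W := by
    intro k
    induction k with
    | zero => simpa using hy
    | succ k ih =>
      have := hle (mul_mem_pm (g := Polynomial.X) ih)
      rwa [← mul_assoc, ← pow_succ'] at this
  have h2 := mem_Pn.mp (hW (h1 (D + 1)))
  rw [Polynomial.natDegree_mul (pow_ne_zero _ Polynomial.X_ne_zero) hy0, Polynomial.natDegree_X_pow]
    at h2
  omega

/-- The space generated grows when the subspace is nonzero. -/
lemma finrank_sup_XW {D : ℕ} {W : Submodule K (Polynomial K)} (hW : W ≤ Pn K D) (hne : W ≠ ⊥) :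
    finrank K W + 1 ≤ finrank K ↥(W ⊔ XW W) := by
  have hle : W ⊔ XW W ≤ Pn K (D + 1) := sup_le (hW.trans (Pn_mono (by omega))) (XW_le hW)
  have := finP hle
  have hlt : W < W ⊔ XW W := by
    refine lt_of_le_of_ne (le_sup_left (a := W) (b := XW W)) fun h => XW_not_le hW hne ?_
    have h' : XW W ≤ W ⊔ XW W := le_sup_right
    rwa [← h] at h'
  exact Submodule.finrank_lt_finrank_of_lt hlt

lemma Pn_sup_XW (n : ℕ) : Pn K n ⊔ XW (Pn K n) = Pn K (n + 1) := by
  refine le_antisymm (sup_le (Pn_mono (by omega)) (XW_le le_rfl)) fun p hp => ?_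
  have h1 := mem_Pn.mp hp
  have h2 : p = Polynomial.C (p.coeff 0) + Polynomial.X * p.divX := by
    rw [add_comm, mul_comm]
    exact (Polynomial.divX_mul_X_add p).symm
  rw [h2]
  refine Submodule.add_mem_sup (mem_Pn.mpr (by simp)) (mul_mem_pm (mem_Pn.mpr ?_))
  rw [Polynomial.natDegree_divX_eq_natDegree_tsub_one]
  omega

lemma pm_sup (g : Polynomial K) (V W : Submodule K (Polynomial K)) :
    pm g (V ⊔ W) = pm g V ⊔ pm g W := Submodule.map_sup _ _ _

lemma XW_pm (g : Polynomial K) (W : Submodule K (Polynomial K)) :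
    XW (pm g W) = pm g (XW W) := by
  ext x
  simp only [mem_pm]
  constructor
  · rintro ⟨u, ⟨v, hv, rfl⟩, rfl⟩
    exact ⟨_, ⟨v, hv, rfl⟩, by ring⟩
  · rintro ⟨u, ⟨v, hv, rfl⟩, rfl⟩
    exact ⟨_, ⟨v, hv, rfl⟩, by ring⟩

/-- The structure of the subspaces which grow by one dimension. -/
theorem structure_of_small {D : ℕ} : ∀ (k : ℕ) (W : Submodule K (Polynomial K)), W ≤ Pn K D →
    finrank K W = k + 1 → finrank K ↥(W ⊔ XW W) ≤ k + 2 →
    ∃ g : Polynomial K, g ≠ 0 ∧ W = pm g (Pn K k) := by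
  intro k
  induction k with
  | zero =>
    intro W _ h1 _
    obtain ⟨g, hg0, hg⟩ := (finrank_eq_one_iff' (K := K) (V := W)).mp h1
    refine ⟨g.1, by simpa using hg0, ?_⟩
    ext x
    rw [mem_pm]
    constructor
    · intro hx
      obtain ⟨c, hc⟩ := hg ⟨x, hx⟩
      refine ⟨Polynomial.C c, mem_Pn.mpr (by simp), ?_⟩
      have : c • g.1 = x := congrArg Subtype.val hc
      rw [← this, Polynomial.smul_eq_C_mul, mul_comm]
    · rintro ⟨u, hu, rfl⟩
      have h2 := mem_Pn.mp hu
      rw [Polynomial.eq_C_of_natDegree_le_zero h2, mul_comm, ← Polynomial.smul_eq_C_mul]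
      exact W.smul_mem _ g.2
  | succ k ih =>
    intro W hW h1 h2
    have hne : W ≠ ⊥ := by
      rintro rfl
      simp at h1
    have hle : W ⊔ XW W ≤ Pn K (D + 1) := sup_le (hW.trans (Pn_mono (by omega))) (XW_le hW)
    have hfinW := finP hW
    have hfinX : Module.Finite K (XW W) := finP (XW_le hW)
    let W₁ : Submodule K (Polynomial K) := W ⊓ W.comap (LinearMap.mulLeft K Polynomial.X)
    have hW₁ : W₁ ≤ W := inf_le_left
    have hX : XW W₁ = W ⊓ XW W := by
      ext x
      rw [Submodule.mem_inf, mem_pm, mem_pm]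
      constructor
      · rintro ⟨u, hu, rfl⟩
        exact ⟨hu.2, u, hu.1, rfl⟩
      · rintro ⟨hx, u, hu, rfl⟩
        exact ⟨u, ⟨hu, hx⟩, rfl⟩
    have hf1 : finrank K W₁ = finrank K ↥(W ⊓ XW W) := by
      rw [← hX, finrank_pm Polynomial.X_ne_zero]
    have h3 := Submodule.finrank_sup_add_finrank_inf_eq W (XW W)
    rw [finrank_pm Polynomial.X_ne_zero] at h3
    have h4 : W₁ ≠ W := by
      intro he
      refine XW_not_le hW hne ?_
      intro x hx
      obtain ⟨u, hu, rfl⟩ := mem_pm.mp hx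
      have : u ∈ W₁ := by rw [he]; exact hu
      exact this.2
    have h5 : finrank K W₁ < finrank K W :=
      Submodule.finrank_lt_finrank_of_lt (lt_of_le_of_ne hW₁ h4)
    have hW₁1 : finrank K W₁ = k + 1 := by omega
    have hXW₁ : W₁ ⊔ XW W₁ ≤ W := by
      refine sup_le hW₁ ?_
      rw [hX]
      exact inf_le_left
    have h6 : finrank K ↥(W₁ ⊔ XW W₁) ≤ k + 2 := by
      have := Submodule.finrank_mono hXW₁
      omega
    obtain ⟨g, hg0, hg⟩ := ih W₁ (hW₁.trans hW) hW₁1 h6
    refine ⟨g, hg0, ?_⟩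
    have h7 : pm g (Pn K (k + 1)) ≤ W := by
      rw [← Pn_sup_XW, pm_sup, ← XW_pm, ← hg]
      exact hXW₁
    refine (Submodule.eq_of_le_of_finrank_le h7 ?_).symm
    rw [finrank_pm hg0, finrank_Pn]
    omega

lemma X_mul_XW_pm_Pn (g : Polynomial K) (k : ℕ) :
    pm g (Pn K k) ⊔ XW (pm g (Pn K k)) = pm g (Pn K (k + 1)) := by
  rw [← Pn_sup_XW, pm_sup, ← XW_pm]

/-- Two coprime forms of positive degree span a plane. -/
lemma two_le_of_coprime {φ γ : Polynomial K} (hcop : IsCoprime φ γ) (hφ : 0 < φ.natDegree)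
    {U : Submodule K (Polynomial K)} {D : ℕ} (hU : U ≤ Pn K D) (h1 : φ ∈ U) (h2 : γ ∈ U) :
    2 ≤ finrank K U := by
  by_contra hcon
  have := finP hU
  have hφ0 : φ ≠ 0 := by
    rintro rfl
    simp at hφ
  have hle : finrank K U ≤ 1 := by omega
  obtain ⟨g, hg⟩ := (finrank_le_one_iff (K := K) (V := U)).mp hle
  obtain ⟨c1, hc1⟩ := hg ⟨φ, h1⟩
  obtain ⟨c2, hc2⟩ := hg ⟨γ, h2⟩
  have hc1' : c1 • g.1 = φ := congrArg Subtype.val hc1
  have hc2' : c2 • g.1 = γ := congrArg Subtype.val hc2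
  have hc10 : c1 ≠ 0 := by
    rintro rfl
    rw [zero_smul] at hc1'
    exact hφ0 hc1'.symm
  have hd : φ ∣ γ := by
    refine ⟨Polynomial.C (c2 / c1), ?_⟩
    rw [← hc1', ← hc2', Polynomial.smul_eq_C_mul, Polynomial.smul_eq_C_mul]
    have : Polynomial.C c2 = Polynomial.C c1 * Polynomial.C (c2 / c1) := by
      rw [← Polynomial.C_mul]
      congr 1
      field_simp
    rw [this]
    ring
  have hu : IsUnit φ := hcop.isUnit_of_dvd' dvd_rfl hd
  have := Polynomial.natDegree_eq_zero_of_isUnit hu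
  omega

/-- The key growth bound in one variable. -/
theorem growth_two {φ γ : Polynomial K} (hcop : IsCoprime φ γ) (hφ : 0 < φ.natDegree) {d : ℕ}
    {W U : Submodule K (Polynomial K)} (hW : W ≤ Pn K d) (hne : W ≠ Pn K d) (hU : U ≤ Pn K (d + 1))
    (h1 : W ≤ U) (h2 : XW W ≤ U) (h3 : φ ∈ U) (h4 : γ ∈ U) (h5 : ¬ U ≤ Pn K d) :
    finrank K W + 2 ≤ finrank K U := by
  by_cases hW0 : W = ⊥
  · subst hW0
    rw [finrank_bot]
    have := two_le_of_coprime hcop hφ hU h3 h4
    omega
  by_contra hcon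
  have hfinU := finP hU
  have hfinW := finP hW
  obtain ⟨k, hk⟩ : ∃ k, finrank K W = k + 1 := by
    have : 0 < finrank K W := by
      rw [Nat.pos_iff_ne_zero]
      intro h0
      exact hW0 (Submodule.finrank_eq_zero.mp h0)
    exact ⟨finrank K W - 1, by omega⟩
  have hsub : W ⊔ XW W ≤ U := sup_le h1 h2
  have h6 := Submodule.finrank_mono hsub
  obtain ⟨g, hg0, hg⟩ := structure_of_small k W hW hk (by omega)
  have h7 : finrank K ↥(W ⊔ XW W) ≥ k + 2 := by
    have := finrank_sup_XW hW hW0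
    omega
  have hUeq : W ⊔ XW W = U := Submodule.eq_of_le_of_finrank_le hsub (by omega)
  have hUg : U = pm g (Pn K (k + 1)) := by
    rw [← hUeq, hg, X_mul_XW_pm_Pn]
  have hg3 : g ∣ φ := by
    rw [hUg] at h3
    obtain ⟨u, _, rfl⟩ := mem_pm.mp h3
    exact Dvd.intro _ rfl
  have hg4 : g ∣ γ := by
    rw [hUg] at h4
    obtain ⟨u, _, rfl⟩ := mem_pm.mp h4
    exact Dvd.intro _ rfl
  have hgu : IsUnit g := hcop.isUnit_of_dvd' hg3 hg4
  have hg5 : g.natDegree = 0 := Polynomial.natDegree_eq_zero_of_isUnit hgu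
  have h8 : d ≤ k := by
    by_contra hlt
    apply h5
    intro x hx
    rw [hUg] at hx
    have := natDegree_le_of_mem_pm (m := 0) hg5.le (le_refl _) hx
    exact mem_Pn.mpr (by omega)
  apply hne
  refine Submodule.eq_of_le_of_finrank_le hW ?_
  rw [finrank_Pn]
  omega

end Vale.Agent.Lib.P200.Gen
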