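import Vale.Agent.Lib.P200.Gen.Poly

namespace Vale.Agent.Lib.P200.Gen

open MvPolynomial Module Fam

variable {K : Type*} [Field K]

/-- Polynomials of degree at most `n - e`, and zero when `e > n`. -/
noncomputable def PnT (K : Type*) [Field K] (n e : ℕ) : Submodule K (Polynomial K) :=
  if e ≤ n then Pn K (n - e) else ⊥

lemma finrank_PnT (n e : ℕ) : finrank K (PnT K n e) = n + 1 - e := by
  by_cases h : e ≤ n
  · rw [PnT, if_pos h, finrank_Pn]
    omega
  · rw [PnT, if_neg h, finrank_bot]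
    omega

lemma mem_PnT_degree {n e : ℕ} {v : Polynomial K} (hv : v ∈ PnT K n e) (h0 : v ≠ 0) :
    e ≤ n ∧ v.natDegree + e ≤ n := by
  unfold PnT at hv
  split_ifs at hv with h
  · have := mem_Pn.mp hv
    exact ⟨h, by omega⟩
  · exact absurd ((Submodule.mem_bot K).mp hv) h0

lemma mem_PnT_of {n e : ℕ} {v : Polynomial K} (he : e ≤ n) (hv : v.natDegree + e ≤ n) :
    v ∈ PnT K n e := by
  unfold PnT
  rw [if_pos he]
  exact mem_Pn.mpr (by omega)

/-- The multiples of two polynomials in degree `n`. -/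
noncomputable def aP (φ γ : Polynomial K) (a b n : ℕ) : Submodule K (Polynomial K) :=
  pm φ (PnT K n a) ⊔ pm γ (PnT K n b)

/-- The number of independent multiples of two coprime polynomials of degrees `a`, `b` in degree
`n < a + b`. -/
def bb (a b n : ℕ) : ℕ := (n + 1 - a) + (n + 1 - b)

section OneVar

variable {φ γ : Polynomial K} {a b : ℕ}

lemma aP_le (hφ : φ.natDegree = a) (hγ : γ.natDegree = b) (n : ℕ) :
    aP φ γ a b n ≤ Pn K n := by
  have key : ∀ (u : Polynomial K) (e : ℕ), u.natDegree = e → pm u (PnT K n e) ≤ Pn K n := by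
    intro u e he x hx
    obtain ⟨v, hv, rfl⟩ := mem_pm.mp hx
    by_cases h0 : v = 0
    · rw [h0, mul_zero]
      exact Submodule.zero_mem _
    · refine mem_Pn.mpr (Polynomial.natDegree_mul_le.trans ?_)
      have := mem_PnT_degree hv h0
      omega
  exact sup_le (key φ a hφ) (key γ b hγ)

lemma finrank_aP (hcop : IsCoprime φ γ) (hφ : φ.natDegree = a) (hγ : γ.natDegree = b)
    (ha : 1 ≤ a) (hb : 1 ≤ b) {n : ℕ} (hn : n < a + b) :
    finrank K (aP φ γ a b n) = bb a b n := by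
  have hφ0 : φ ≠ 0 := by
    rintro rfl
    simp at hφ
    omega
  have hγ0 : γ ≠ 0 := by
    rintro rfl
    simp at hγ
    omega
  have hle := aP_le hφ hγ n
  have hA : pm φ (PnT K n a) ≤ Pn K n := le_sup_left.trans hle
  have hB : pm γ (PnT K n b) ≤ Pn K n := le_sup_right.trans hle
  have := finP hA
  have := finP hB
  have h1 := Submodule.finrank_sup_add_finrank_inf_eq (pm φ (PnT K n a)) (pm γ (PnT K n b))
  have h2 : pm φ (PnT K n a) ⊓ pm γ (PnT K n b) = ⊥ := by
    rw [eq_bot_iff]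
    rintro x ⟨hx1, hx2⟩
    obtain ⟨u, _, rfl⟩ := mem_pm.mp hx1
    obtain ⟨v, hv, huv⟩ := mem_pm.mp hx2
    have hd : φ ∣ γ * v := ⟨u, huv⟩
    have hd2 : φ ∣ v := hcop.dvd_of_dvd_mul_left hd
    by_cases hv0 : v = 0
    · rw [← huv, hv0, mul_zero]
      exact Submodule.zero_mem _
    · exfalso
      have h3 := Polynomial.natDegree_le_of_dvd hd2 hv0
      have h4 := mem_PnT_degree hv hv0
      omega
  rw [h2, finrank_bot, finrank_pm hφ0, finrank_pm hγ0, finrank_PnT, finrank_PnT, add_zero] at h1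
  exact h1

lemma phi_mem_aP {n : ℕ} (hn : a ≤ n) : φ ∈ aP φ γ a b n := by
  refine Submodule.mem_sup_left ?_
  have := mul_mem_pm (g := φ) (mem_PnT_of (K := K) (n := n) (e := a) (v := 1) hn (by simpa using hn))
  rwa [mul_one] at this

lemma gamma_mem_aP {n : ℕ} (hn : b ≤ n) : γ ∈ aP φ γ a b n := by
  refine Submodule.mem_sup_right ?_
  have := mul_mem_pm (g := γ) (mem_PnT_of (K := K) (n := n) (e := b) (v := 1) hn (by simpa using hn))
  rwa [mul_one] at this

lemma aP_not_le (hφ : φ.natDegree = a) (hφ0 : φ ≠ 0) {n : ℕ} (hn : a ≤ n + 1) :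
    ¬ aP φ γ a b (n + 1) ≤ Pn K n := by
  intro hle
  have h1 : φ * Polynomial.X ^ (n + 1 - a) ∈ aP φ γ a b (n + 1) := by
    refine Submodule.mem_sup_left (mul_mem_pm (mem_PnT_of hn ?_))
    rw [Polynomial.natDegree_X_pow]
    omega
  have h2 := mem_Pn.mp (hle h1)
  rw [Polynomial.natDegree_mul hφ0 (pow_ne_zero _ Polynomial.X_ne_zero), Polynomial.natDegree_X_pow]
    at h2
  omega

/-- The growth of subspaces containing the multiples, when they are not everything. -/
theorem zoneA (hcop : IsCoprime φ γ) (hφ : φ.natDegree = a) (hγ : γ.natDegree = b) (ha : 1 ≤ a)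
    (hab : a ≤ b) {d : ℕ} (hd : d + 1 < a + b) {W U : Submodule K (Polynomial K)}
    (hW : W ≤ Pn K d) (hne : W ≠ Pn K d) (hU : U ≤ Pn K (d + 1)) (h1 : W ≤ U) (h2 : XW W ≤ U)
    (h3 : aP φ γ a b (d + 1) ≤ U) :
    finrank K W + bb a b (d + 1) ≤ finrank K U + bb a b d := by
  have hφ0 : φ ≠ 0 := by
    rintro rfl
    simp at hφ
    omega
  by_cases hb : b ≤ d + 1
  · have h4 := growth_two hcop (by omega) hW hne hU h1 h2 (h3 (phi_mem_aP (by omega)))
      (h3 (gamma_mem_aP hb)) (fun hle => aP_not_le hφ hφ0 (by omega) (h3.trans hle))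
    unfold bb
    omega
  · by_cases hW0 : W = ⊥
    · subst hW0
      have h4 := finrank_le_P h3 hU
      rw [finrank_aP hcop hφ hγ ha (by omega) hd] at h4
      rw [finrank_bot]
      omega
    · have h4 := finrank_sup_XW hW hW0
      have h5 := finrank_le_P (sup_le h1 h2) hU
      unfold bb
      omega

/-- Growth when there are no multiples yet. -/
theorem zoneB {d : ℕ} {W U : Submodule K (Polynomial K)} (hW : W ≤ Pn K d) (hne : W ≠ ⊥)
    (hU : U ≤ Pn K (d + 1)) (h1 : W ≤ U) (h2 : XW W ≤ U) :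
    finrank K W + 1 ≤ finrank K U :=
  (finrank_sup_XW hW hne).trans (finrank_le_P (sup_le h1 h2) hU)

/-- The full case. -/
theorem zoneF {d : ℕ} {U : Submodule K (Polynomial K)} (hU : U ≤ Pn K (d + 1)) (h1 : Pn K d ≤ U)
    (h2 : XW (Pn K d) ≤ U) : finrank K U = d + 2 := by
  have h3 : U = Pn K (d + 1) := le_antisymm hU (by
    rw [← Pn_sup_XW]
    exact sup_le h1 h2)
  rw [h3, finrank_Pn]

end OneVar

section Line

variable (α β c : K)

/-- The restriction to the line, as a linear map. -/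
noncomputable abbrev piL : MvPolynomial (Fin 3) K →ₗ[K] Polynomial K :=
  (piC α β c).toLinearMap

lemma map_Hd (n : ℕ) : (Hd K n).map (piL α β c) = Pn K n := by
  ext p
  rw [Submodule.mem_map]
  constructor
  · rintro ⟨h, hh, rfl⟩
    exact mem_Pn.mpr (piC_deg α β c n hh).1
  · intro hp
    obtain ⟨h, hh, rfl⟩ := piC_lift α β c n (mem_Pn.mp hp)
    exact ⟨h, hh, rfl⟩

lemma map_Pt (n e : ℕ) : (Pt K n e).map (piL α β c) = PnT K n e := by
  unfold Pt PnT
  split_ifs with h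
  · exact map_Hd α β c _
  · exact Submodule.map_bot _

lemma map_gmul (f : MvPolynomial (Fin 3) K) (V : Submodule K (MvPolynomial (Fin 3) K)) :
    (gmul f V).map (piL α β c) = pm (piC α β c f) (V.map (piL α β c)) := by
  ext p
  simp only [Submodule.mem_map, mem_gmul, mem_pm]
  constructor
  · rintro ⟨_, ⟨u, hu, rfl⟩, rfl⟩
    exact ⟨_, ⟨u, hu, rfl⟩, (map_mul (piC α β c) f u).symm⟩
  · rintro ⟨_, ⟨u, hu, rfl⟩, rfl⟩
    exact ⟨_, ⟨u, hu, rfl⟩, map_mul (piC α β c) f u⟩

lemma lift_Pt {n e : ℕ} {D : Polynomial K} (h : D = 0 ∨ (e ≤ n ∧ D.natDegree + e ≤ n)) :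
    ∃ E ∈ Pt K n e, piC α β c E = D := by
  rcases h with rfl | ⟨h1, h2⟩
  · exact ⟨0, Submodule.zero_mem _, map_zero _⟩
  · obtain ⟨E, hE, rfl⟩ := piC_lift α β c (n - e) (A := D) (by omega)
    exact ⟨E, by rwa [Pt_of_le h1], rfl⟩

lemma dvd_of_Pt [Infinite K] {n e : ℕ} {u : MvPolynomial (Fin 3) K} (hu : u ∈ Pt K n e)
    (h0 : piC α β c u = 0) : lF α β c ∣ u := by
  unfold Pt at hu
  split_ifs at hu with h
  · exact lF_dvd_of_piC α β c hu h0
  · rw [(Submodule.mem_bot K).mp hu]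
    exact dvd_zero _

lemma Pt_deg {n e : ℕ} {u : MvPolynomial (Fin 3) K} (hu : u ∈ Pt K n e)
    (h0 : piC α β c u ≠ 0) : e ≤ n ∧ (piC α β c u).natDegree + e ≤ n := by
  have h1 : piC α β c u ∈ (Pt K n e).map (piL α β c) := Submodule.mem_map_of_mem hu
  rw [map_Pt] at h1
  exact mem_PnT_degree h1 h0

end Line

section Slices

variable [Infinite K] (α β c : K)

/-- The dimension formula for slices. -/
theorem slice_dimG {V : Submodule K (MvPolynomial (Fin 3) K)} {n : ℕ} (hV : V ≤ Hd K (n + 1)) :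
    finrank K V = finrank K (V.map (piL α β c)) + finrank K (slice (lF α β c) n V) := by
  have hl := lF_mem α β c
  have hl0 := lF_ne_zero α β c
  have := fin_of_le hV
  set ρ := piL α β c with hρ
  have h1 := LinearMap.finrank_range_add_finrank_ker (ρ.domRestrict V)
  rw [LinearMap.range_domRestrict, LinearMap.ker_domRestrict] at h1
  have hW : V ⊓ LinearMap.ker ρ = gmul (lF α β c) (slice (lF α β c) n V) := by
    apply le_antisymm
    · rintro x ⟨hx1, hx2⟩
      have hx3 : piC α β c x = 0 := hx2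
      obtain ⟨r, hr⟩ := lF_dvd_of_piC α β c (hV hx1) hx3
      have hr' := homog_quot (e := 1) (k := n) hl (by rw [add_comm]; exact hV hx1) hr
      have hr2 : x = lF α β c * homogeneousComponent n r := hr'
      rw [hr2]
      refine mul_mem_gmul (mem_slice.mpr ⟨?_, homogeneousComponent_mem _ _⟩)
      rw [← hr2]
      exact hx1
    · intro x hx
      obtain ⟨r, hr, rfl⟩ := mem_gmul.mp hx
      refine ⟨(mem_slice.mp hr).1, ?_⟩
      show piC α β c _ = 0
      rw [map_mul, piC_lF, zero_mul]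
  have h2 : finrank K ↥((LinearMap.ker ρ).comap V.subtype) = finrank K ↥(V ⊓ LinearMap.ker ρ) := by
    have h3 : (LinearMap.ker ρ).comap V.subtype = (V ⊓ LinearMap.ker ρ).comap V.subtype := by
      ext x
      simp
    rw [h3]
    exact (Submodule.comapSubtypeEquivOfLe inf_le_left).finrank_eq
  rw [h2, hW, finrank_gmul hl0] at h1
  exact h1.symm

end Slices

/-- The graded pieces of the ideal of two forms. -/
noncomputable abbrev FF (f g : MvPolynomial (Fin 3) K) (n : ℕ) :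
    Submodule K (MvPolynomial (Fin 3) K) := degPart (Ideal.span {f, g}) n

/-- The subspace generated in degree `d + 1` by `V` and the ideal of two forms. -/
noncomputable def UpG (f g : MvPolynomial (Fin 3) K) (V : Submodule K (MvPolynomial (Fin 3) K))
    (d : ℕ) : Submodule K (MvPolynomial (Fin 3) K) :=
  Hd K 1 * V ⊔ FF f g (d + 1)

/-- A line on which two forms of degrees `a`, `b` restrict to coprime polynomials of the same
degrees. -/
structure GoodLine (f g : MvPolynomial (Fin 3) K) (a b : ℕ) (α β c : K) : Prop where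
  hf : f ∈ Hd K a
  hg : g ∈ Hd K b
  ha : 3 ≤ a
  hab : a ≤ b
  hφ : (piC α β c f).natDegree = a
  hγ : (piC α β c g).natDegree = b
  hcop : IsCoprime (piC α β c f) (piC α β c g)

section Pair

variable {f g : MvPolynomial (Fin 3) K}

lemma FF_le (n : ℕ) : FF f g n ≤ Hd K n := inf_le_right

lemma mem_FF {n : ℕ} {x : MvPolynomial (Fin 3) K} :
    x ∈ FF f g n ↔ x ∈ Ideal.span {f, g} ∧ x ∈ Hd K n := mem_degPart

lemma UpG_le {V : Submodule K (MvPolynomial (Fin 3) K)} {d : ℕ} (hV : V ≤ Hd K d) :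
    UpG f g V d ≤ Hd K (d + 1) :=
  sup_le (mul_le_Hd hV) (FF_le _)

lemma FF_le_UpG (V : Submodule K (MvPolynomial (Fin 3) K)) (d : ℕ) :
    FF f g (d + 1) ≤ UpG f g V d := le_sup_right

lemma mul_mem_UpG {V : Submodule K (MvPolynomial (Fin 3) K)} (d : ℕ)
    {m v : MvPolynomial (Fin 3) K} (hm : m ∈ Hd K 1) (hv : v ∈ V) : m * v ∈ UpG f g V d :=
  Submodule.mem_sup_left (Submodule.mul_mem_mul hm hv)

lemma lin_mul_FF {m x : MvPolynomial (Fin 3) K} {n : ℕ} (hm : m ∈ Hd K 1) (hx : x ∈ FF f g n) :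
    m * x ∈ FF f g (n + 1) := by
  obtain ⟨h1, h2⟩ := mem_FF.mp hx
  refine mem_FF.mpr ⟨Ideal.mul_mem_left _ _ h1, ?_⟩
  have := Hd_mul_mem hm h2
  rwa [add_comm] at this

lemma UpG_mono {V V' : Submodule K (MvPolynomial (Fin 3) K)} (h : V ≤ V') (d : ℕ) :
    UpG f g V d ≤ UpG f g V' d :=
  sup_le_sup_right (Submodule.mul_le.mpr fun _ hm _ hv => Submodule.mul_mem_mul hm (h hv)) _

lemma UpG_le_ideal {V : Submodule K (MvPolynomial (Fin 3) K)} {d : ℕ}
    {J : Ideal (MvPolynomial (Fin 3) K)} (h1 : Ideal.span {f, g} ≤ J) (h2 : ∀ v ∈ V, v ∈ J)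
    {x : MvPolynomial (Fin 3) K} (hx : x ∈ UpG f g V d) : x ∈ J := by
  have hle : UpG f g V d ≤ J.restrictScalars K := by
    refine sup_le ?_ ?_
    · rw [Submodule.mul_le]
      intro m _ v hv
      exact J.mul_mem_left m (h2 v hv)
    · intro y hy
      exact h1 (mem_FF.mp hy).1
  exact hle hx

lemma FF_eq {a b : ℕ} (hf : f ∈ Hd K a) (hg : g ∈ Hd K b) (n : ℕ) :
    FF f g n = gmul f (Pt K n a) ⊔ gmul g (Pt K n b) := by
  rw [FF, degPart_ab hf hg, degPart_a hf]

lemma gmul_bot (x : MvPolynomial (Fin 3) K) :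
    gmul x (⊥ : Submodule K (MvPolynomial (Fin 3) K)) = ⊥ := by
  simp [gmul]

lemma FF_low {a b : ℕ} (hf : f ∈ Hd K a) (hg : g ∈ Hd K b) (hab : a ≤ b) {n : ℕ} (hn : n < a) :
    FF f g n = ⊥ := by
  rw [FF_eq hf hg, Pt_of_lt hn, Pt_of_lt (by omega), gmul_bot, gmul_bot, sup_bot_eq]

end Pair

section GoodLines

variable {f g : MvPolynomial (Fin 3) K} {a b : ℕ} {α β c : K} (G : GoodLine f g a b α β c)

include G

lemma map_FF (n : ℕ) :
    (FF f g n).map (piL α β c) = aP (piC α β c f) (piC α β c g) a b n := by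
  rw [FF_eq G.hf G.hg, Submodule.map_sup, map_gmul, map_gmul, map_Pt, map_Pt]
  rfl

lemma finrank_aPG {n : ℕ} (hn : n < a + b) :
    finrank K (aP (piC α β c f) (piC α β c g) a b n) = bb a b n :=
  finrank_aP G.hcop G.hφ G.hγ (by have := G.ha; omega) (by have := G.ha; have := G.hab; omega) hn

lemma phi_ne : piC α β c f ≠ 0 := by
  intro h
  have := G.hφ
  have h3 := G.ha
  rw [h] at this
  simp at this
  omega

lemma f_ne : f ≠ 0 := by
  rintro rfl
  exact phi_ne G (map_zero _)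

lemma l_nzd_aux [Infinite K] {x : MvPolynomial (Fin 3) K} {n : ℕ} (hx : x ∈ Hd K n)
    (hmem : lF α β c * x ∈ Ideal.span {f, g}) : x ∈ Ideal.span {f, g} := by
  obtain ⟨A, B, hAB⟩ := Ideal.mem_span_pair.mp hmem
  have hhom : lF α β c * x ∈ Hd K (n + 1) := by
    have := Hd_mul_mem (lF_mem α β c) hx
    rwa [add_comm] at this
  have hs := decomp2 G.hf G.hg hhom hAB
  set A' := cp (n + 1) a A with hA'
  set B' := cp (n + 1) b B with hB'
  have hA'm : A' ∈ Pt K (n + 1) a := cp_mem _ _ _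
  have hB'm : B' ∈ Pt K (n + 1) b := cp_mem _ _ _
  have hπ : piC α β c A' * piC α β c f + piC α β c B' * piC α β c g = 0 := by
    have := congrArg (piC α β c) hs
    rwa [map_add, map_mul, map_mul, map_mul, piC_lF, zero_mul] at this
  have hd : piC α β c f ∣ piC α β c B' * piC α β c g :=
    ⟨- piC α β c A', by linear_combination hπ⟩
  have hd2 : piC α β c f ∣ piC α β c B' := G.hcop.dvd_of_dvd_mul_right hd
  obtain ⟨D, hD⟩ := hd2
  have hφ0 := phi_ne G
  have hliftcond : D = 0 ∨ (a + b ≤ n + 1 ∧ D.natDegree + (a + b) ≤ n + 1) := by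
    by_cases hD0 : D = 0
    · exact Or.inl hD0
    · right
      have h1 : piC α β c B' ≠ 0 := by
        rw [hD]
        exact mul_ne_zero hφ0 hD0
      obtain ⟨h2, h3⟩ := Pt_deg α β c hB'm h1
      rw [hD, Polynomial.natDegree_mul hφ0 hD0, G.hφ] at h3
      omega
  obtain ⟨E, hE, hED⟩ := lift_Pt α β c hliftcond
  have hA₁ : A' + E * g ∈ Pt K (n + 1) a :=
    Submodule.add_mem _ hA'm (Pt_mul hE G.hg)
  have hB₁ : B' - E * f ∈ Pt K (n + 1) b :=
    Submodule.sub_mem _ hB'm (Pt_mul (by rw [add_comm b a]; exact hE) G.hf)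
  have hπ1 : piC α β c (B' - E * f) = 0 := by
    rw [map_sub, map_mul, hED, hD]
    ring
  have hπ2 : piC α β c (A' + E * g) = 0 := by
    rw [map_add, map_mul, hED]
    apply mul_left_cancel₀ hφ0
    rw [mul_zero]
    rw [hD] at hπ
    linear_combination hπ
  obtain ⟨r₁, hr₁⟩ := dvd_of_Pt α β c hA₁ hπ2
  obtain ⟨r₂, hr₂⟩ := dvd_of_Pt α β c hB₁ hπ1
  have hl0 := lF_ne_zero α β c
  have h5 : lF α β c * x = lF α β c * (r₁ * f + r₂ * g) := by
    rw [← hs]
    have h6 : A' = lF α β c * r₁ - E * g := by rw [← hr₁]; ring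
    have h7 : B' = lF α β c * r₂ + E * f := by rw [← hr₂]; ring
    rw [h6, h7]
    ring
  rw [mul_left_cancel₀ hl0 h5]
  exact Ideal.mem_span_pair.mpr ⟨r₁, r₂, rfl⟩

lemma slice_FF [Infinite K] (n : ℕ) : slice (lF α β c) n (FF f g (n + 1)) = FF f g n := by
  ext x
  rw [mem_slice, mem_FF, mem_FF]
  constructor
  · rintro ⟨⟨h1, _⟩, h3⟩
    exact ⟨l_nzd_aux G h3 h1, h3⟩
  · rintro ⟨h1, h2⟩
    refine ⟨⟨Ideal.mul_mem_left _ _ h1, ?_⟩, h2⟩
    have := Hd_mul_mem (lF_mem α β c) h2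
    rwa [add_comm] at this

lemma finrank_FF_succ [Infinite K] {n : ℕ} (hn : n + 1 < a + b) :
    finrank K (FF f g (n + 1)) = bb a b (n + 1) + finrank K (FF f g n) := by
  have h1 := slice_dimG α β c (FF_le (f := f) (g := g) (n + 1))
  rw [slice_FF G, map_FF G, finrank_aPG G hn] at h1
  exact h1

end GoodLines

end Vale.Agent.Lib.P200.Gen
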