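import Vale.Agent.Lib.P200.Gen.Setup

namespace Vale.Agent.Lib.P200.Gen

open MvPolynomial Module Fam

variable {K : Type*} [Field K] {f g : MvPolynomial (Fin 3) K} {a b : ℕ} {α β c : K}

section Basic

variable (α β c)

lemma FF_le_slice {V : Submodule K (MvPolynomial (Fin 3) K)} {n : ℕ} (hFV : FF f g (n + 1) ≤ V) :
    FF f g n ≤ slice (lF α β c) n V := by
  intro x hx
  exact mem_slice.mpr ⟨hFV (lin_mul_FF (lF_mem α β c) hx), (mem_FF.mp hx).2⟩

lemma le_slice_Up {V : Submodule K (MvPolynomial (Fin 3) K)} {n : ℕ} (hV : V ≤ Hd K n) :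
    V ≤ slice (lF α β c) n (UpG f g V n) := by
  intro x hx
  exact mem_slice.mpr ⟨mul_mem_UpG _ (lF_mem α β c) hx, hV hx⟩

lemma UpG_slice_le {V : Submodule K (MvPolynomial (Fin 3) K)} {n : ℕ} :
    UpG f g (slice (lF α β c) n V) n ≤ slice (lF α β c) (n + 1) (UpG f g V (n + 1)) := by
  refine sup_le ?_ ?_
  · rw [Submodule.mul_le]
    intro m hm r hr
    obtain ⟨h1, h2⟩ := mem_slice.mp hr
    refine mem_slice.mpr ⟨?_, ?_⟩
    · rw [show lF α β c * (m * r) = m * (lF α β c * r) by ring]
      exact mul_mem_UpG _ hm h1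
    · have := Hd_mul_mem hm h2
      rwa [add_comm] at this
  · intro x hx
    refine mem_slice.mpr ⟨FF_le_UpG _ _ (lin_mul_FF (lF_mem α β c) hx), (mem_FF.mp hx).2⟩

lemma map_le_Pn {V : Submodule K (MvPolynomial (Fin 3) K)} {n : ℕ} (hV : V ≤ Hd K n) :
    V.map (piL α β c) ≤ Pn K n := by
  rw [← map_Hd α β c n]
  exact Submodule.map_mono hV

lemma map_le_map_Up (V : Submodule K (MvPolynomial (Fin 3) K)) (n : ℕ) :
    V.map (piL α β c) ≤ (UpG f g V n).map (piL α β c) := by
  rintro _ ⟨x, hx, rfl⟩
  refine ⟨tF β * x, mul_mem_UpG _ (tF_mem β) hx, ?_⟩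
  show piC α β c _ = piC α β c _
  rw [map_mul, piC_tF, one_mul]

lemma XW_map_le (V : Submodule K (MvPolynomial (Fin 3) K)) (n : ℕ) :
    XW (V.map (piL α β c)) ≤ (UpG f g V n).map (piL α β c) := by
  intro y hy
  obtain ⟨_, ⟨x, hx, rfl⟩, rfl⟩ := mem_pm.mp hy
  refine ⟨X 0 * x, mul_mem_UpG _ (X_mem_Hd 0) hx, ?_⟩
  show piC α β c _ = _ * piC α β c _
  rw [map_mul, piC_X0]

end Basic

section Numbers

variable [Infinite K] (G : GoodLine f g a b α β c)

include G

/-- All the numbers attached to a slice of `V` and to a slice of the subspace it generates. -/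
theorem step_numbers {V : Submodule K (MvPolynomial (Fin 3) K)} {n : ℕ} (hV : V ≤ Hd K (n + 1))
    (hFV : FF f g (n + 1) ≤ V) (hn : n + 2 < a + b) :
    finrank K V = finrank K (V.map (piL α β c)) + finrank K (slice (lF α β c) n V) ∧
    finrank K (UpG f g V (n + 1)) = finrank K ((UpG f g V (n + 1)).map (piL α β c))
      + finrank K (slice (lF α β c) (n + 1) (UpG f g V (n + 1))) ∧
    finrank K (FF f g (n + 1)) = bb a b (n + 1) + finrank K (FF f g n) ∧
    finrank K (FF f g (n + 1 + 1)) = bb a b (n + 2) + finrank K (FF f g (n + 1)) ∧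
    bb a b (n + 1) ≤ finrank K (V.map (piL α β c)) ∧
    finrank K V ≤ finrank K (slice (lF α β c) (n + 1) (UpG f g V (n + 1))) ∧
    finrank K (UpG f g (slice (lF α β c) n V) n)
      ≤ finrank K (slice (lF α β c) (n + 1) (UpG f g V (n + 1))) ∧
    finrank K (FF f g n) ≤ finrank K (slice (lF α β c) n V) ∧
    (finrank K (V.map (piL α β c)) ≠ n + 2 →
      finrank K (V.map (piL α β c)) + bb a b (n + 2)
        ≤ finrank K ((UpG f g V (n + 1)).map (piL α β c)) + bb a b (n + 1)) ∧
    (finrank K (V.map (piL α β c)) = n + 2 →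
      finrank K ((UpG f g V (n + 1)).map (piL α β c)) = n + 3) ∧
    (1 ≤ finrank K (V.map (piL α β c)) →
      finrank K (V.map (piL α β c)) + 1 ≤ finrank K ((UpG f g V (n + 1)).map (piL α β c))) := by
  have hU : UpG f g V (n + 1) ≤ Hd K (n + 1 + 1) := UpG_le hV
  have hS := slice_le (lF α β c) (n + 1) (UpG f g V (n + 1))
  have hW := map_le_Pn α β c hV
  have hW2 := map_le_Pn α β c hU
  have h1 := map_le_map_Up (f := f) (g := g) α β c V (n + 1)
  have h2 := XW_map_le (f := f) (g := g) α β c V (n + 1)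
  have h3 : aP (piC α β c f) (piC α β c g) a b (n + 1 + 1)
      ≤ (UpG f g V (n + 1)).map (piL α β c) := by
    rw [← map_FF G]
    exact Submodule.map_mono (FF_le_UpG _ _)
  have h4 : aP (piC α β c f) (piC α β c g) a b (n + 1) ≤ V.map (piL α β c) := by
    rw [← map_FF G]
    exact Submodule.map_mono hFV
  refine ⟨slice_dimG α β c hV, slice_dimG α β c hU, finrank_FF_succ G (by omega),
    finrank_FF_succ G (by omega), ?_, finrank_mono_Hd (le_slice_Up α β c hV) hS,
    finrank_mono_Hd (UpG_slice_le α β c) hS,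
    finrank_mono_Hd (FF_le_slice α β c hFV) (slice_le _ _ _), ?_, ?_, ?_⟩
  · have := finrank_le_P h4 hW
    rwa [finrank_aPG G (by omega)] at this
  · intro hne
    have h5 : V.map (piL α β c) ≠ Pn K (n + 1) := by
      intro he
      apply hne
      rw [he, finrank_Pn]
    exact zoneA G.hcop G.hφ G.hγ (by have := G.ha; omega) G.hab (by omega) hW h5 hW2 h1 h2 h3
  · intro he
    have h5 : V.map (piL α β c) = Pn K (n + 1) := by
      refine Submodule.eq_of_le_of_finrank_le hW ?_
      rw [finrank_Pn, he]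
    rw [h5] at h1 h2
    have := zoneF hW2 h1 h2
    omega
  · intro h5
    refine zoneB hW ?_ hW2 h1 h2
    intro h0
    rw [h0, finrank_bot] at h5
    omega

end Numbers

/-- The thresholds. -/
def th (a d t : ℕ) : ℕ :=
  if a ≤ d + 1 then (t - 1) * (d + 1 - a) + t.choose 2 else (t - 1).choose 2

lemma th_one (a d : ℕ) : th a d 1 = 0 := by
  unfold th
  split_ifs <;> simp

lemma th_succ_of_le {a n t : ℕ} (h : a ≤ n + 2) (ht : 1 ≤ t) :
    th a (n + 1) t = th a n t + (t - 1) := by
  obtain ⟨s, rfl⟩ : ∃ s, t = s + 1 := ⟨t - 1, by omega⟩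
  unfold th
  rw [if_pos h]
  by_cases h1 : a ≤ n + 1
  · rw [if_pos h1, show n + 1 + 1 - a = (n + 1 - a) + 1 by omega, Nat.mul_add]
    simp only [Nat.add_sub_cancel]
    omega
  · rw [if_neg h1, show n + 1 + 1 - a = 0 by omega, Nat.mul_zero, Nat.zero_add]
    simp only [Nat.add_sub_cancel]
    rw [choose_step]
    omega

lemma th_succ_of_gt {a n t : ℕ} (h : n + 2 < a) : th a (n + 1) t = th a n t := by
  unfold th
  rw [if_neg (by omega), if_neg (by omega)]

lemma th_pred {a n s : ℕ} (h : n + 2 < a) (hs : 1 ≤ s) :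
    th a (n + 1) (s + 1) = th a n s + (s - 1) := by
  unfold th
  rw [if_neg (by omega), if_neg (by omega)]
  obtain ⟨r, rfl⟩ : ∃ r, s = r + 1 := ⟨s - 1, by omega⟩
  simp only [Nat.add_sub_cancel]
  rw [choose_step]
  omega

section P1

variable [Infinite K] (G : GoodLine f g a b α β c)

include G

/-- The growth in the quotient by two forms. -/
theorem P1 : ∀ (d : ℕ) (V : Submodule K (MvPolynomial (Fin 3) K)), V ≤ Hd K d → FF f g d ≤ V →
    ∀ q t : ℕ, finrank K V = finrank K (FF f g d) + q → 1 ≤ t → t ≤ a → t + d + 2 ≤ a + b →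
    th a d t < q → finrank K (FF f g (d + 1)) + q + t ≤ finrank K (UpG f g V d) := by
  have ha3 := G.ha
  have hab := G.hab
  intro d
  induction d with
  | zero =>
    intro V hV _ q t hq ht1 _ _ hth
    rw [FF_low G.hf G.hg hab (by omega), finrank_bot, zero_add] at hq
    rw [show (0 + 1 : ℕ) = 1 from rfl, FF_low G.hf G.hg hab (by omega), finrank_bot, zero_add]
    have h1 := finrank_mono_Hd hV (le_refl _)
    rw [finrank_Hd, show (0 + 2 : ℕ).choose 2 = 1 from rfl] at h1
    have hq1 : q = 1 := by omega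
    have hVeq : V = Hd K 0 := eq_of_le_finrank (le_refl _) hV (by
      rw [finrank_Hd, hq, hq1]
      exact le_refl _)
    have ht2 : t ≤ 2 := by
      unfold th at hth
      rw [if_neg (by omega), hq1, Nat.lt_one_iff, Nat.choose_eq_zero_iff] at hth
      omega
    have h2 : UpG f g V 0 = Hd K 1 := by
      rw [UpG, hVeq, Hd_one_mul, show (0 + 1 : ℕ) = 1 from rfl]
      exact sup_eq_left.mpr (FF_le 1)
    rw [h2, finrank_Hd, show (1 + 2 : ℕ).choose 2 = 3 from rfl]
    omega
  | succ n ih =>
    intro V hV hFV q t hq ht1 ht2 ht3 hth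
    obtain ⟨s1, s2, s3, s4, s5, s6, s7, s8, s9, s10, s11⟩ := step_numbers G hV hFV (by omega)
    set fW := finrank K (V.map (piL α β c)) with hfW
    set fŴ := finrank K ((UpG f g V (n + 1)).map (piL α β c)) with hfŴ
    set V' := slice (lF α β c) n V with hV'
    have hS : V' ≤ Hd K n := slice_le _ _ _
    have hFS : FF f g n ≤ V' := FF_le_slice α β c hFV
    have hq' : finrank K V' = finrank K (FF f g n) + (finrank K V' - finrank K (FF f g n)) := by
      omega
    by_cases hfull : fW = n + 2
    · -- the full case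
      have h1 := s10 hfull
      have hlow : n + 2 < a → t ≤ n + 3 := by
        intro hlt
        by_contra hcon
        have h2 : (n + 3).choose 2 ≤ (t - 1).choose 2 := Nat.choose_le_choose 2 (by omega)
        have h3 : th a (n + 1) t = (t - 1).choose 2 := by
          unfold th
          rw [if_neg (by omega)]
        have h4 := finrank_mono_Hd hV (le_refl _)
        rw [finrank_Hd] at h4
        have h5 : (n + 1 + 2).choose 2 = (n + 3).choose 2 := rfl
        omega
      unfold bb at *
      omega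
    · have h1 := s9 hfull
      by_cases hbig : bb a b (n + 2) + t ≤ fŴ
      · omega
      · by_cases hzone : a ≤ n + 2
        · have h2 := th_succ_of_le hzone ht1
          have h3 := ih V' hS hFS _ t hq' ht1 ht2 (by omega) (by omega)
          omega
        · have hb1 : bb a b (n + 1) = 0 := by
            unfold bb
            omega
          have hb2 : bb a b (n + 2) = 0 := by
            unfold bb
            omega
          by_cases hW0 : fW = 0
          · have h2 := th_succ_of_gt (a := a) (n := n) (t := t) (by omega)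
            have h3 := ih V' hS hFS _ t hq' ht1 ht2 (by omega) (by omega)
            omega
          · have h2 := s11 (by omega)
            obtain ⟨s, rfl⟩ : ∃ s, t = s + 1 := ⟨t - 1, by omega⟩
            have h4 := th_pred (a := a) (n := n) (s := s) (by omega) (by omega)
            have h3 := ih V' hS hFS _ s hq' (by omega) (by omega) (by omega) (by omega)
            omega

end P1

end Vale.Agent.Lib.P200.Gen
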