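import Vale.Agent.Lib.P200.Gen.Step

namespace Vale.Agent.Lib.P200.Gen

open MvPolynomial Module Fam

variable {K : Type*} [Field K] {f g : MvPolynomial (Fin 3) K} {a b : ℕ} {α β c : K}

/-- The linear forms multiplying `x` into `Y`. -/
noncomputable def killer (x : MvPolynomial (Fin 3) K) (Y : Submodule K (MvPolynomial (Fin 3) K)) :
    Submodule K (MvPolynomial (Fin 3) K) :=
  Hd K 1 ⊓ Y.comap (LinearMap.mulLeft K x)

lemma mem_killer {x m : MvPolynomial (Fin 3) K} {Y : Submodule K (MvPolynomial (Fin 3) K)} :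
    m ∈ killer x Y ↔ m ∈ Hd K 1 ∧ x * m ∈ Y := by
  simp [killer, Submodule.mem_inf]

/-- The dimension formula for the linear multiples of one form modulo a subspace. -/
lemma kernel_formula {x : MvPolynomial (Fin 3) K} {Y : Submodule K (MvPolynomial (Fin 3) K)} {d : ℕ}
    (hx0 : x ≠ 0) (hx : x ∈ Hd K d) (hY : Y ≤ Hd K (d + 1)) :
    finrank K ↥(gmul x (Hd K 1) ⊔ Y) + finrank K (killer x Y) = 3 + finrank K Y := by
  have hA : gmul x (Hd K 1) ≤ Hd K (d + 1) := gmul_le_Hd hx (le_refl _)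
  have := fin_of_le hA
  have := fin_of_le hY
  have h1 := Submodule.finrank_sup_add_finrank_inf_eq (gmul x (Hd K 1)) Y
  have h2 : gmul x (Hd K 1) ⊓ Y = gmul x (killer x Y) := by
    ext y
    rw [Submodule.mem_inf, mem_gmul, mem_gmul]
    constructor
    · rintro ⟨⟨m, hm, rfl⟩, hY'⟩
      exact ⟨m, mem_killer.mpr ⟨hm, hY'⟩, rfl⟩
    · rintro ⟨m, hm, rfl⟩
      obtain ⟨h3, h4⟩ := mem_killer.mp hm
      exact ⟨⟨m, h3, rfl⟩, h4⟩
  rw [h2, finrank_gmul hx0, finrank_gmul hx0, finrank_Hd] at h1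
  rw [show (1 + 2 : ℕ).choose 2 = 3 from rfl] at h1
  exact h1

/-- A subspace of dimension one more than `A`. -/
lemma exists_gen {A V : Submodule K (MvPolynomial (Fin 3) K)} {d : ℕ} (hV : V ≤ Hd K d) (hAV : A ≤ V)
    (hdim : finrank K V = finrank K A + 1) :
    ∃ n ∈ V, n ∉ A ∧ V ≤ A ⊔ Submodule.span K {n} := by
  have := fin_of_le hV
  have hlt : A < V := by
    refine lt_of_le_of_ne hAV ?_
    rintro rfl
    omega
  obtain ⟨n, hn, hnA⟩ := SetLike.exists_of_lt hlt
  refine ⟨n, hn, hnA, ?_⟩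
  have hle : A ⊔ Submodule.span K {n} ≤ V :=
    sup_le hAV ((Submodule.span_singleton_le_iff_mem _ _).mpr hn)
  have hlt2 : A < A ⊔ Submodule.span K {n} := by
    refine lt_of_le_of_ne le_sup_left ?_
    intro he
    apply hnA
    rw [he]
    exact Submodule.mem_sup_right (Submodule.mem_span_singleton_self n)
  have := fin_of_le (hle.trans hV)
  have h3 := Submodule.finrank_lt_finrank_of_lt hlt2
  have h4 := Submodule.eq_of_le_of_finrank_le hle (by omega)
  rw [h4]

/-- `UpG` of a subspace with one generator modulo the ideal. -/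
lemma UpG_of_gen {V : Submodule K (MvPolynomial (Fin 3) K)} {d : ℕ} {n : MvPolynomial (Fin 3) K}
    (hn : n ∈ V) (hle : V ≤ FF f g d ⊔ Submodule.span K {n}) :
    UpG f g V d = gmul n (Hd K 1) ⊔ FF f g (d + 1) := by
  refine le_antisymm (sup_le ?_ le_sup_right) (sup_le ?_ le_sup_right)
  · rw [Submodule.mul_le]
    intro m hm v hv
    obtain ⟨y, hy, z, hz, rfl⟩ := Submodule.mem_sup.mp (hle hv)
    obtain ⟨r, rfl⟩ := Submodule.mem_span_singleton.mp hz
    rw [mul_add]
    refine Submodule.add_mem _ (Submodule.mem_sup_right (lin_mul_FF hm hy)) ?_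
    rw [smul_eq_C_mul, show m * (C r * n) = C r * (n * m) by ring, ← smul_eq_C_mul]
    exact Submodule.smul_mem _ _ (Submodule.mem_sup_left (mul_mem_gmul hm))
  · intro x hx
    obtain ⟨m, hm, rfl⟩ := mem_gmul.mp hx
    rw [mul_comm]
    exact mul_mem_UpG _ hm hn

lemma mul_mem_of_gen {V : Submodule K (MvPolynomial (Fin 3) K)} {d : ℕ}
    {n m x : MvPolynomial (Fin 3) K} (hle : V ≤ FF f g d ⊔ Submodule.span K {n})
    (hm : m * n ∈ Ideal.span {f, g}) (hx : x ∈ V) : m * x ∈ Ideal.span {f, g} := by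
  obtain ⟨y, hy, z, hz, rfl⟩ := Submodule.mem_sup.mp (hle hx)
  obtain ⟨r, rfl⟩ := Submodule.mem_span_singleton.mp hz
  rw [mul_add, smul_eq_C_mul, show m * (C r * n) = C r * (m * n) by ring]
  exact Ideal.add_mem _ (Ideal.mul_mem_left _ _ (mem_FF.mp hy).1) (Ideal.mul_mem_left _ _ hm)

/-- A linear form killing everything, when `UpG` is small and `V` has one generator. -/
lemma T1_one {V : Submodule K (MvPolynomial (Fin 3) K)} {d : ℕ} (hV : V ≤ Hd K d)
    (hFV : FF f g d ≤ V) (hq : finrank K V = finrank K (FF f g d) + 1)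
    (hU : finrank K (UpG f g V d) ≤ finrank K (FF f g (d + 1)) + 2) :
    ∃ m ∈ Hd K 1, m ≠ 0 ∧ ∀ x ∈ V, m * x ∈ Ideal.span {f, g} := by
  obtain ⟨n, hn, hnF, hle⟩ := exists_gen hV hFV hq
  have hn0 : n ≠ 0 := by
    rintro rfl
    exact hnF (Submodule.zero_mem _)
  have h1 := kernel_formula hn0 (hV hn) (FF_le (f := f) (g := g) (d + 1))
  rw [← UpG_of_gen hn hle] at h1
  have h2 : killer n (FF f g (d + 1)) ≠ ⊥ := by
    intro h0
    rw [h0, finrank_bot] at h1
    omega
  obtain ⟨m, hm, hm0⟩ := Submodule.exists_mem_ne_zero_of_ne_bot h2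
  obtain ⟨h3, h4⟩ := mem_killer.mp hm
  refine ⟨m, h3, hm0, fun x hx => mul_mem_of_gen hle ?_ hx⟩
  rw [mul_comm]
  exact (mem_FF.mp h4).1

/-- Multiplying by a fixed form the subspace generated by `V`. -/
lemma mul_mem_of_UpG {V : Submodule K (MvPolynomial (Fin 3) K)} {d : ℕ} {m : MvPolynomial (Fin 3) K}
    (hV : ∀ y ∈ V, m * y ∈ Ideal.span {f, g}) {x : MvPolynomial (Fin 3) K}
    (hx : x ∈ UpG f g V d) : m * x ∈ Ideal.span {f, g} := by
  have hle : UpG f g V d ≤ ((Ideal.span {f, g}).restrictScalars K).comap (LinearMap.mulLeft K m) := by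
    refine sup_le ?_ ?_
    · rw [Submodule.mul_le]
      intro r _ y hy
      show m * (r * y) ∈ Ideal.span {f, g}
      rw [show m * (r * y) = r * (m * y) by ring]
      exact Ideal.mul_mem_left _ _ (hV y hy)
    · intro y hy
      exact Ideal.mul_mem_left _ _ (mem_FF.mp hy).1
  exact hle hx

section Main

variable [Infinite K] (G : GoodLine f g a b α β c)

include G

/-- A small growth forces a common linear form killing `V` modulo the ideal. -/
theorem T1 : ∀ (d : ℕ) (V : Submodule K (MvPolynomial (Fin 3) K)), V ≤ Hd K d → FF f g d ≤ V →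
    ∀ q : ℕ, finrank K V = finrank K (FF f g d) + q → 1 ≤ q → d + 4 ≤ a + b →
    finrank K (UpG f g V d) ≤ finrank K (FF f g (d + 1)) + q + 1 →
    ∃ m ∈ Hd K 1, m ≠ 0 ∧ ∀ x ∈ V, m * x ∈ Ideal.span {f, g} := by
  have ha3 := G.ha
  have hab := G.hab
  intro d
  induction d with
  | zero =>
    intro V hV hFV q hq hq1 _ hU
    by_cases hq2 : q = 1
    · subst hq2
      exact T1_one hV hFV hq hU
    · exfalso
      rw [FF_low G.hf G.hg hab (by omega), finrank_bot, zero_add] at hq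
      have h1 := finrank_mono_Hd hV (le_refl _)
      rw [finrank_Hd, show (0 + 2 : ℕ).choose 2 = 1 from rfl] at h1
      omega
  | succ n ih =>
    intro V hV hFV q hq hq1 hd hU
    by_cases hq2 : q = 1
    · subst hq2
      exact T1_one hV hFV hq hU
    obtain ⟨s1, s2, s3, s4, s5, s6, s7, s8, s9, s10, s11⟩ := step_numbers G hV hFV (by omega)
    set fW := finrank K (V.map (piL α β c)) with hfW
    set fŴ := finrank K ((UpG f g V (n + 1)).map (piL α β c)) with hfŴ
    set V' := slice (lF α β c) n V with hV'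
    have hS : V' ≤ Hd K n := slice_le _ _ _
    have hFS : FF f g n ≤ V' := FF_le_slice α β c hFV
    have hq' : finrank K V' = finrank K (FF f g n) + (finrank K V' - finrank K (FF f g n)) := by
      omega
    by_cases hfull : fW = n + 2
    · exfalso
      have h1 := s10 hfull
      unfold bb at *
      omega
    have h1 := s9 hfull
    have h2 := P1 G n V' hS hFS _ 1 hq' (by omega) (by omega) (by omega) (by rw [th_one]; omega)
    obtain ⟨m, hm, hm0, hmV⟩ := ih V' hS hFS _ hq' (by omega) (by omega) (by omega)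
    refine ⟨m, hm, hm0, fun x hx => ?_⟩
    have h3 : UpG f g V' n = slice (lF α β c) (n + 1) (UpG f g V (n + 1)) :=
      eq_of_le_finrank (slice_le _ _ _) (UpG_slice_le α β c) (by omega)
    have h4 : x ∈ UpG f g V' n := by
      rw [h3]
      exact le_slice_Up α β c hV hx
    exact mul_mem_of_UpG hmV h4

end Main

/-- Nonzerodivisors modulo the ideal of two forms. -/
def NZD (f g w : MvPolynomial (Fin 3) K) : Prop := ∀ u, w * u ∈ Ideal.span {f, g} → u ∈ Ideal.span {f, g}

/-- The dichotomy for subspaces without nonzerodivisors. -/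
theorem exists_prime [Infinite K] {X : Submodule K (MvPolynomial (Fin 3) K)}
    (hX : ∀ x ∈ X, ¬ NZD f g x) :
    ∃ P : Ideal (MvPolynomial (Fin 3) K), P.IsPrime ∧ Ideal.span {f, g} ≤ P ∧ (∀ x ∈ X, x ∈ P) ∧
      ∀ y ∈ P, ¬ NZD f g y := by
  classical
  set I : Ideal (MvPolynomial (Fin 3) K) := Ideal.span {f, g} with hI
  let M := MvPolynomial (Fin 3) K ⧸ I
  have hfin := associatedPrimes.finite (MvPolynomial (Fin 3) K) M
  let ι := ↥(associatedPrimes (MvPolynomial (Fin 3) K) M)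
  have : Finite ι := hfin
  let s : ι → Subspace K X := fun p => (p.1.restrictScalars K).comap X.subtype
  have hcov : ⋃ i, (s i : Set X) = Set.univ := by
    rw [Set.eq_univ_iff_forall]
    intro x
    have h1 := hX x.1 x.2
    unfold NZD at h1
    push Not at h1
    obtain ⟨u, hu1, hu2⟩ := h1
    have h2 : x.1 ∈ {r : MvPolynomial (Fin 3) K | ∃ y : M, y ≠ 0 ∧ r • y = 0} := by
      refine ⟨Ideal.Quotient.mk I u, ?_, ?_⟩
      · intro h0
        exact hu2 (Ideal.Quotient.eq_zero_iff_mem.mp h0)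
      · show Ideal.Quotient.mk I (x.1 * u) = 0
        exact Ideal.Quotient.eq_zero_iff_mem.mpr hu1
    rw [← biUnion_associatedPrimes_eq_zero_divisors] at h2
    obtain ⟨p, hp, hxp⟩ := Set.mem_iUnion₂.mp h2
    exact Set.mem_iUnion.mpr ⟨⟨p, hp⟩, hxp⟩
  obtain ⟨i, hi⟩ := Subspace.exists_eq_top_of_iUnion_eq_univ hcov
  obtain ⟨hprime, y₀, hy₀⟩ := isAssociatedPrime_iff.mp i.2
  obtain ⟨u₀, rfl⟩ := Ideal.Quotient.mk_surjective y₀
  have hmem : ∀ z, z ∈ i.1 ↔ z * u₀ ∈ I := by
    intro z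
    rw [hy₀, Submodule.mem_colon_singleton, Submodule.mem_bot]
    exact Ideal.Quotient.eq_zero_iff_mem
  have hu₀ : u₀ ∉ I := by
    intro h0
    apply hprime.ne_top
    rw [Ideal.eq_top_iff_one, hmem, one_mul]
    exact h0
  refine ⟨i.1, hprime, ?_, ?_, ?_⟩
  · intro z hz
    rw [hmem]
    exact Ideal.mul_mem_right _ _ hz
  · intro x hx
    have h2 : (⟨x, hx⟩ : X) ∈ s i := by
      rw [hi]
      trivial
    exact h2
  · intro y hy hnz
    exact hu₀ (hnz u₀ ((hmem y).mp hy))

section Free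

variable (G : GoodLine f g a b α β c)

include G

lemma one_not_mem : (1 : MvPolynomial (Fin 3) K) ∉ Ideal.span {f, g} := by
  intro h
  have h1 : (1 : MvPolynomial (Fin 3) K) ∈ FF f g 0 := mem_FF.mpr ⟨h, isHomogeneous_one _ _⟩
  rw [FF_low G.hf G.hg G.hab (by have := G.ha; omega)] at h1
  exact one_ne_zero ((Submodule.mem_bot K).mp h1)

lemma NZD.ne_zero {w : MvPolynomial (Fin 3) K} (hw : NZD f g w) : w ≠ 0 := by
  rintro rfl
  exact one_not_mem G (hw 1 (by rw [zero_mul]; exact Ideal.zero_mem _))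

lemma NZD.not_mem {w : MvPolynomial (Fin 3) K} (hw : NZD f g w) : w ∉ Ideal.span {f, g} := by
  intro h
  exact one_not_mem G (hw 1 (by rw [mul_one]; exact h))

/-- A nonzerodivisor multiplies the forms of low degree freely. -/
lemma free_inf {w : MvPolynomial (Fin 3) K} (hw : NZD f g w) {e n : ℕ} (he : e < a)
    {X : Submodule K (MvPolynomial (Fin 3) K)} (hX : X ≤ Hd K e) :
    gmul w X ⊓ FF f g n = ⊥ := by
  rw [eq_bot_iff]
  rintro x ⟨hx1, hx2⟩
  obtain ⟨u, hu, rfl⟩ := mem_gmul.mp hx1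
  have h1 := hw u (mem_FF.mp hx2).1
  have h2 : u ∈ FF f g e := mem_FF.mpr ⟨h1, hX hu⟩
  rw [FF_low G.hf G.hg G.hab he] at h2
  rw [(Submodule.mem_bot K).mp h2, mul_zero]
  exact Submodule.zero_mem _

lemma finrank_free {w : MvPolynomial (Fin 3) K} (hw : NZD f g w) {e n : ℕ} (he : e < a)
    {X : Submodule K (MvPolynomial (Fin 3) K)} (hX : X ≤ Hd K e) {d : ℕ} (hwd : w ∈ Hd K d) :
    finrank K ↥(gmul w X ⊔ FF f g n) = finrank K X + finrank K (FF f g n) := by
  have h1 : gmul w X ≤ Hd K (d + e) := gmul_le_Hd hwd hX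
  have := fin_of_le h1
  have := fin_of_le (FF_le (f := f) (g := g) n)
  have h2 := Submodule.finrank_sup_add_finrank_inf_eq (gmul w X) (FF f g n)
  rw [free_inf G hw he hX, finrank_bot, add_zero, finrank_gmul (NZD.ne_zero G hw)] at h2
  exact h2

end Free

section PN1

variable [Infinite K] (G : GoodLine f g a b α β c)

include G

/-- A nonzerodivisor in `V` forces a growth by at least two. -/
theorem PN1 {d : ℕ} {V : Submodule K (MvPolynomial (Fin 3) K)} (hV : V ≤ Hd K d)
    (hFV : FF f g d ≤ V) {q : ℕ} (hq : finrank K V = finrank K (FF f g d) + q) (hd : d + 4 ≤ a + b)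
    {w : MvPolynomial (Fin 3) K} (hwV : w ∈ V) (hw : NZD f g w) :
    finrank K (FF f g (d + 1)) + q + 2 ≤ finrank K (UpG f g V d) := by
  have hq1 : 1 ≤ q := by
    by_contra h0
    have h1 : q = 0 := by omega
    subst h1
    have h2 : FF f g d = V := eq_of_le_finrank hV hFV (by omega)
    rw [← h2] at hwV
    exact NZD.not_mem G hw (mem_FF.mp hwV).1
  by_contra hcon
  obtain ⟨m, hm, hm0, hmV⟩ := T1 G d V hV hFV q hq hq1 hd (by omega)
  have h1 := hmV w hwV
  rw [mul_comm] at h1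
  have h2 : m ∈ FF f g 1 := mem_FF.mpr ⟨hw m h1, hm⟩
  rw [FF_low G.hf G.hg G.hab (by have := G.ha; omega)] at h2
  exact hm0 ((Submodule.mem_bot K).mp h2)

end PN1

end Vale.Agent.Lib.P200.Gen
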