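import Vale.Agent.Lib.P200.Gen.Tee

namespace Vale.Agent.Lib.P200.Gen

open MvPolynomial Module Fam

variable {K : Type*} [Field K] {f g : MvPolynomial (Fin 3) K} {a b : ℕ} {α β c : K}

/-- Two linear forms in a subspace, one not a multiple of the other. -/
lemma exists_pair {A : Submodule K (MvPolynomial (Fin 3) K)} (hA : A ≤ Hd K 1)
    (h2 : 2 ≤ finrank K A) :
    ∃ m₁ ∈ A, ∃ m₂ ∈ A, m₁ ≠ 0 ∧ m₂ ∉ Submodule.span K {m₁} := by
  have h0 : A ≠ ⊥ := by
    rintro rfl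
    rw [finrank_bot] at h2
    omega
  obtain ⟨m₁, h1, h3⟩ := Submodule.exists_mem_ne_zero_of_ne_bot h0
  have := fin_of_le hA
  have h4 : Submodule.span K {m₁} < A := by
    refine lt_of_le_of_ne ((Submodule.span_singleton_le_iff_mem _ _).mpr h1) ?_
    intro he
    rw [← he, finrank_span_singleton h3] at h2
    omega
  obtain ⟨m₂, h5, h6⟩ := SetLike.exists_of_lt h4
  exact ⟨m₁, h1, m₂, h5, h3, h6⟩

lemma two_le_of_pair {A : Submodule K (MvPolynomial (Fin 3) K)} (hA : A ≤ Hd K 1)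
    {m₁ m₂ : MvPolynomial (Fin 3) K} (h1 : m₁ ∈ A) (h2 : m₂ ∈ A) (h0 : m₁ ≠ 0)
    (h3 : m₂ ∉ Submodule.span K {m₁}) : 2 ≤ finrank K A := by
  have := fin_of_le hA
  have h4 : Submodule.span K {m₁} < Submodule.span K {m₁} ⊔ Submodule.span K {m₂} := by
    refine lt_of_le_of_ne le_sup_left ?_
    intro he
    apply h3
    rw [he]
    exact Submodule.mem_sup_right (Submodule.mem_span_singleton_self m₂)
  have h5 : Submodule.span K {m₁} ⊔ Submodule.span K {m₂} ≤ A :=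
    sup_le ((Submodule.span_singleton_le_iff_mem _ _).mpr h1)
      ((Submodule.span_singleton_le_iff_mem _ _).mpr h2)
  have := Submodule.finiteDimensional_of_le h5
  have h6 := Submodule.finrank_lt_finrank_of_lt h4
  have h7 := Submodule.finrank_mono h5
  rw [finrank_span_singleton h0] at h6
  omega

/-- An identity between linear forms. -/
lemma syz_lin {m₁ m₂ α₁ α₂ : MvPolynomial (Fin 3) K} (hm₁ : m₁ ∈ Hd K 1) (h0 : m₁ ≠ 0)
    (hm₂' : m₂ ∈ Hd K 1) (hm₂ : m₂ ∉ Submodule.span K {m₁}) (hα₁ : α₁ ∈ Hd K 1)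
    (h : m₂ * α₁ = m₁ * α₂) :
    ∃ s ∈ Hd K 0, α₁ = m₁ * s ∧ α₂ = m₂ * s := by
  have hp := lin_prime hm₁ h0
  have hd : m₁ ∣ m₂ * α₁ := ⟨α₂, h⟩
  have hnd : ¬ m₁ ∣ m₂ := by
    intro hdv
    obtain ⟨κ, hκ⟩ := lin_dvd hm₁ hm₂' hdv
    apply hm₂
    rw [hκ, ← smul_eq_C_mul]
    exact Submodule.smul_mem _ _ (Submodule.mem_span_singleton_self m₁)
  have h1 : m₁ ∣ α₁ := (hp.dvd_or_dvd hd).resolve_left hnd
  obtain ⟨r, hr⟩ := h1
  have hr' := homog_quot (e := 1) (k := 0) hm₁ (by simpa using hα₁) hr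
  refine ⟨homogeneousComponent 0 r, homogeneousComponent_mem _ _, hr', ?_⟩
  apply mul_left_cancel₀ h0
  rw [← h, hr']
  ring

section Direct

variable [Infinite K] (G : GoodLine f g a b α β c)

include G

/-- The case of two generators, one of them a nonzerodivisor. -/
theorem PN2_two {d : ℕ} {V : Submodule K (MvPolynomial (Fin 3) K)} (hV : V ≤ Hd K d)
    (hFV : FF f g d ≤ V) (hq : finrank K V = finrank K (FF f g d) + 2) (hd : d + 4 ≤ a + b)
    {w : MvPolynomial (Fin 3) K} (hwV : w ∈ V) (hw : NZD f g w) :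
    finrank K (FF f g (d + 1)) + 2 + 3 ≤ finrank K (UpG f g V d) := by
  have ha3 := G.ha
  by_contra hcon
  have hw0 := NZD.ne_zero G hw
  have hwd : w ∈ Hd K d := hV hwV
  set A₁ := FF f g d ⊔ Submodule.span K {w} with hA₁
  have hA₁le : A₁ ≤ V := sup_le hFV ((Submodule.span_singleton_le_iff_mem _ _).mpr hwV)
  have hfA₁ : finrank K A₁ = finrank K (FF f g d) + 1 := by
    have h1 : FF f g d ⊓ Submodule.span K {w} = ⊥ := by
      rw [eq_bot_iff]
      rintro x ⟨hx1, hx2⟩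
      obtain ⟨r, rfl⟩ := Submodule.mem_span_singleton.mp hx2
      by_cases hr : r = 0
      · rw [hr, zero_smul]
        exact Submodule.zero_mem _
      · exfalso
        have h2 := Submodule.smul_mem _ r⁻¹ hx1
        rw [smul_smul, inv_mul_cancel₀ hr, one_smul] at h2
        exact NZD.not_mem G hw (mem_FF.mp h2).1
    have := fin_of_le (FF_le (f := f) (g := g) d)
    have h3 := Submodule.finrank_sup_add_finrank_inf_eq (FF f g d) (Submodule.span K {w})
    rw [h1, finrank_bot, finrank_span_singleton hw0] at h3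
    omega
  obtain ⟨n, hn, hnA, hle⟩ := exists_gen hV hA₁le (by omega)
  have hn0 : n ≠ 0 := by
    rintro rfl
    exact hnA (Submodule.zero_mem _)
  -- the linear multiples of `w`
  set X₀ := gmul w (Hd K 1) ⊔ FF f g (d + 1) with hX₀
  have hfX₀ : finrank K X₀ = 3 + finrank K (FF f g (d + 1)) := by
    rw [hX₀, finrank_free G hw (by omega) (le_refl _) hwd, finrank_Hd]
    rfl
  have hX₀le : X₀ ≤ Hd K (d + 1) := sup_le (by
    have := gmul_le_Hd hwd (le_refl (Hd K 1))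
    exact this) (FF_le _)
  have hk := kernel_formula hn0 (hV hn) hX₀le
  have hsub : gmul n (Hd K 1) ⊔ X₀ ≤ UpG f g V d := by
    have hgm : ∀ x ∈ V, gmul x (Hd K 1) ≤ UpG f g V d := by
      intro x hx y hy
      obtain ⟨m, hm, rfl⟩ := mem_gmul.mp hy
      rw [mul_comm]
      exact mul_mem_UpG _ hm hx
    exact sup_le (hgm n hn) (sup_le (hgm w hwV) (FF_le_UpG _ _))
  have hf1 := finrank_mono_Hd hsub (UpG_le hV)
  have hkill : 2 ≤ finrank K (killer n X₀) := by omega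
  have hkle : killer n X₀ ≤ Hd K 1 := inf_le_left
  obtain ⟨m₁, hm₁, m₂, hm₂, hm₁0, hm₂s⟩ := exists_pair hkle hkill
  obtain ⟨hm₁1, hm₁2⟩ := mem_killer.mp hm₁
  obtain ⟨hm₂1, hm₂2⟩ := mem_killer.mp hm₂
  obtain ⟨y₁, hy₁, z₁, hz₁, hyz₁⟩ := Submodule.mem_sup.mp hm₁2
  obtain ⟨y₂, hy₂, z₂, hz₂, hyz₂⟩ := Submodule.mem_sup.mp hm₂2
  obtain ⟨α₁, hα₁, rfl⟩ := mem_gmul.mp hy₁
  obtain ⟨α₂, hα₂, rfl⟩ := mem_gmul.mp hy₂
  -- the syzygy
  have hz₁I := (mem_FF.mp hz₁).1
  have hz₂I := (mem_FF.mp hz₂).1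
  have hrel : w * (m₂ * α₁ - m₁ * α₂) ∈ Ideal.span {f, g} := by
    have h1 : w * (m₂ * α₁ - m₁ * α₂) = m₁ * z₂ - m₂ * z₁ := by
      linear_combination m₂ * hyz₁ - m₁ * hyz₂
    rw [h1]
    exact Ideal.sub_mem _ (Ideal.mul_mem_left _ _ hz₂I) (Ideal.mul_mem_left _ _ hz₁I)
  have h2deg : m₂ * α₁ - m₁ * α₂ ∈ Hd K 2 :=
    Submodule.sub_mem _ (Hd_mul_mem hm₂1 hα₁) (Hd_mul_mem hm₁1 hα₂)
  have h2F : m₂ * α₁ - m₁ * α₂ ∈ FF f g 2 := mem_FF.mpr ⟨hw _ hrel, h2deg⟩
  rw [FF_low G.hf G.hg G.hab (by omega)] at h2F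
  have hsyz : m₂ * α₁ = m₁ * α₂ := sub_eq_zero.mp ((Submodule.mem_bot K).mp h2F)
  obtain ⟨s, hs, hs1, hs2⟩ := syz_lin hm₁1 hm₁0 hm₂1 hm₂s hα₁ hsyz
  -- the new generator
  set n' := n - w * s with hn'
  have hwsV : w * s ∈ Submodule.span K {w} := by
    have hs' : s = C (coeff 0 s) := by
      by_cases h0 : s = 0
      · simp [h0]
      · exact totalDegree_eq_zero_iff_eq_C.mp (totalDegree_of_Hd hs h0)
    rw [hs', mul_comm, ← smul_eq_C_mul]
    exact Submodule.smul_mem _ _ (Submodule.mem_span_singleton_self w)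
  have hn'd : n' ∈ Hd K d := by
    refine Submodule.sub_mem _ (hV hn) ?_
    have := Hd_mul_mem hwd hs
    simpa using this
  have hn'F : n' ∉ FF f g d := by
    intro h0
    apply hnA
    have h1 : n = n' + w * s := by
      rw [hn']
      ring
    rw [h1]
    exact Submodule.add_mem_sup h0 hwsV
  have hn'0 : n' ≠ 0 := by
    intro h0
    apply hn'F
    rw [h0]
    exact Submodule.zero_mem _
  set V₂ := FF f g d ⊔ Submodule.span K {n'} with hV₂
  have hV₂le : V₂ ≤ Hd K d := sup_le (FF_le _) ((Submodule.span_singleton_le_iff_mem _ _).mpr hn'd)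
  have hfV₂ : finrank K V₂ = finrank K (FF f g d) + 1 := by
    have h1 : FF f g d ⊓ Submodule.span K {n'} = ⊥ := by
      rw [eq_bot_iff]
      rintro x ⟨hx1, hx2⟩
      obtain ⟨r, rfl⟩ := Submodule.mem_span_singleton.mp hx2
      by_cases hr : r = 0
      · rw [hr, zero_smul]
        exact Submodule.zero_mem _
      · exfalso
        have h2 := Submodule.smul_mem _ r⁻¹ hx1
        rw [smul_smul, inv_mul_cancel₀ hr, one_smul] at h2
        exact hn'F h2
    have := fin_of_le (FF_le (f := f) (g := g) d)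
    have h3 := Submodule.finrank_sup_add_finrank_inf_eq (FF f g d) (Submodule.span K {n'})
    rw [h1, finrank_bot, finrank_span_singleton hn'0] at h3
    omega
  have hUV₂ : UpG f g V₂ d = gmul n' (Hd K 1) ⊔ FF f g (d + 1) :=
    UpG_of_gen (Submodule.mem_sup_right (Submodule.mem_span_singleton_self n')) le_rfl
  have hk2 := kernel_formula hn'0 hn'd (FF_le (f := f) (g := g) (d + 1))
  rw [← hUV₂] at hk2
  have hkm₁ : m₁ ∈ killer n' (FF f g (d + 1)) := by
    refine mem_killer.mpr ⟨hm₁1, ?_⟩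
    have h1 : n' * m₁ = z₁ := by
      rw [hn']
      have : w * α₁ + z₁ = n * m₁ := hyz₁
      rw [hs1] at this
      linear_combination this.symm
    rw [h1]
    exact hz₁
  have hkm₂ : m₂ ∈ killer n' (FF f g (d + 1)) := by
    refine mem_killer.mpr ⟨hm₂1, ?_⟩
    have h1 : n' * m₂ = z₂ := by
      rw [hn']
      have : w * α₂ + z₂ = n * m₂ := hyz₂
      rw [hs2] at this
      linear_combination this.symm
    rw [h1]
    exact hz₂
  have hkl : killer n' (FF f g (d + 1)) ≤ Hd K 1 := inf_le_left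
  have h2k : 2 ≤ finrank K (killer n' (FF f g (d + 1))) := two_le_of_pair hkl hkm₁ hkm₂ hm₁0 hm₂s
  have hP := P1 G d V₂ hV₂le le_sup_left 1 1 hfV₂ (by omega) (by omega) (by omega)
    (by rw [th_one]; omega)
  omega

end Direct

end Vale.Agent.Lib.P200.Gen
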